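import Crest.Agent.Lib.S0356.Helper85Defs

set_option autoImplicit false
open MeasureTheory Module

namespace Crest.Agent.S0356.GenB
open Crest.Agent.S0356.Helper85

section Shadow
variable {V : Type*} [NormedAddCommGroup V] [InnerProductSpace ℝ V]
    [FiniteDimensional ℝ V] [MeasurableSpace V] [BorelSpace V]

/-- Fubini along the line `ℝ ∙ u`. -/
theorem volume_eq_lintegral_line (u : V) (hu : ‖u‖ = 1) {t : Set V} (ht : MeasurableSet t) :
    volume t = ∫⁻ y : (ℝ ∙ u)ᗮ, volume {r : ℝ | r • u + (y : V) ∈ t} := by
  have h1 := (Submodule.measurePreserving_measurableEquivProd (ℝ ∙ u) (0 : V))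
  rw [← InnerProductSpace.euclideanHausdorffMeasure_eq_volume (V := V),
    ← h1.symm.measure_preimage_equiv, Measure.volume_eq_prod,
    Measure.prod_apply_symm (((ℝ ∙ u).measurableEquivProd (0 : V)).symm.measurable ht)]
  refine lintegral_congr fun y => ?_
  have h2 := (LinearIsometryEquiv.toSpanUnitSingleton u hu).measurePreserving
  have hm : MeasurableSet ((fun x : (ℝ ∙ u) => (x, y)) ⁻¹'
      (((ℝ ∙ u).measurableEquivProd (0 : V)).symm ⁻¹' t)) :=
    (((ℝ ∙ u).measurableEquivProd (0 : V)).symm.measurable ht).preimage (by fun_prop)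
  rw [← h2.measure_preimage hm.nullMeasurableSet]
  congr 1
  ext r
  simp

omit [FiniteDimensional ℝ V] [MeasurableSpace V] [BorelSpace V] in
/-- The fibre of the sweep along the line through `y` in direction `u`. -/
theorem fibre_sweep (K : Set V) (hK : IsCompact K) (hc : Convex ℝ K) (u y : V) (hu : ‖u‖ = 1) :
    volume {r : ℝ | r • u + y ∈ sweep K u} =
      volume {r : ℝ | r • u + y ∈ K} +
        Set.indicator {y : V | ∃ r : ℝ, r • u + y ∈ K} (fun _ => (1 : ENNReal)) y := by
  classical
  set I : Set ℝ := {r : ℝ | r • u + y ∈ K} with hI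
  have hsweep : {r : ℝ | r • u + y ∈ sweep K u} = {r : ℝ | ∃ t ∈ Set.Icc (0 : ℝ) 1, r - t ∈ I} := by
    ext r
    simp only [sweep, Set.mem_image2, Set.mem_ofPred_eq, hI]
    constructor
    · rintro ⟨x, hx, t, ht, hxt⟩
      refine ⟨t, ht, ?_⟩
      have : (r - t) • u + y = x := by
        rw [sub_smul, sub_add_eq_add_sub, ← hxt]; abel
      rw [this]; exact hx
    · rintro ⟨t, ht, hr⟩
      refine ⟨_, hr, t, ht, ?_⟩
      rw [sub_smul]; abel
  have hf : Isometry (fun r : ℝ => r • u + y) := by
    refine Isometry.of_dist_eq fun r r' => ?_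
    simp [dist_eq_norm, ← sub_smul, norm_smul, hu]
  have hIc : IsCompact I := hf.isClosedEmbedding.isCompact_preimage hK
  have hIconv : Convex ℝ I := by
    intro r hr r' hr' a b ha hb hab
    have h := hc hr hr' ha hb hab
    simp only [hI, Set.mem_ofPred_eq]
    have e : (a • r + b • r') • u + y = a • (r • u + y) + b • (r' • u + y) := by
      have : y = a • y + b • y := by rw [← add_smul, hab, one_smul]
      rw [smul_add, smul_add, add_smul, smul_smul, smul_smul]
      nth_rewrite 1 [this]
      simp only [smul_eq_mul]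
      abel
    rw [e]; exact h
  by_cases hne : I.Nonempty
  · have hIcc : I = Set.Icc (sInf I) (sSup I) :=
      eq_Icc_of_connected_compact ⟨hne, hIconv.isPreconnected⟩ hIc
    set a := sInf I
    set b := sSup I
    have hab : a ≤ b := by
      obtain ⟨r, hr⟩ := hne
      rw [hIcc] at hr
      exact hr.1.trans hr.2
    have h2 : {r : ℝ | ∃ t ∈ Set.Icc (0 : ℝ) 1, r - t ∈ I} = Set.Icc a (b + 1) := by
      ext r
      rw [hIcc]
      simp only [Set.mem_ofPred_eq, Set.mem_Icc]
      constructor
      · rintro ⟨t, ⟨ht0, ht1⟩, h1, h2⟩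
        constructor <;> linarith
      · rintro ⟨h1, h2⟩
        refine ⟨max 0 (r - b), ⟨le_max_left _ _, max_le (by norm_num) (by linarith)⟩, ?_, ?_⟩
        · rcases le_total 0 (r - b) with h | h
          · rw [max_eq_right h]; linarith
          · rw [max_eq_left h]; linarith
        · rcases le_total 0 (r - b) with h | h
          · rw [max_eq_right h]; linarith
          · rw [max_eq_left h]; linarith
    have hy : y ∈ {y : V | ∃ r : ℝ, r • u + y ∈ K} := hne
    rw [hsweep, h2, Set.indicator_of_mem hy, hIcc, Real.volume_Icc, Real.volume_Icc,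
      show b + 1 - a = (b - a) + 1 by ring, ENNReal.ofReal_add (by linarith) (by norm_num)]
    simp
  · have hIe : I = ∅ := Set.not_nonempty_iff_eq_empty.mp hne
    have hy : y ∉ {y : V | ∃ r : ℝ, r • u + y ∈ K} := by
      rintro ⟨r, hr⟩
      exact hne ⟨r, hr⟩
    rw [hsweep, Set.indicator_of_notMem hy, hIe]
    simp

/-- **Package B.** For a compact convex `K` and a unit vector `u`, the volume of the sweep
`K + [0,1]u` is the volume of `K` plus the `(n-1)`-dimensional measure of the shadow. -/
theorem sweep_eq_add_shadow {d : ℕ}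
    (hd : Module.finrank ℝ V = d + 1) (K : Set V) (hK : IsCompact K) (hc : Convex ℝ K)
    (u : V) (hu : ‖u‖ = 1) :
    volume (sweep K u) =
      volume K + (μHE[d] : Measure V) ((fun y => y - inner ℝ y u • u) '' K) := by
  classical
  have hu0 : u ≠ 0 := by
    rintro rfl
    simp at hu
  have hPc : IsCompact ((fun y => y - inner ℝ y u • u) '' K) :=
    hK.image (by fun_prop)
  have hsw : IsCompact (sweep K u) := by
    have : sweep K u = (fun p : V × ℝ => p.1 + p.2 • u) '' (K ×ˢ Set.Icc (0 : ℝ) 1) := by
      ext x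
      simp only [sweep, Set.mem_image2, Set.mem_image, Set.mem_prod, Prod.exists]
      constructor
      · rintro ⟨a, ha, t, ht, rfl⟩
        exact ⟨a, t, ⟨ha, ht⟩, rfl⟩
      · rintro ⟨a, t, ⟨ha, ht⟩, rfl⟩
        exact ⟨a, ha, t, ht, rfl⟩
    rw [this]
    exact (hK.prod isCompact_Icc).image (by fun_prop)
  -- the shadow as a subset of the hyperplane
  set Q : Set ((ℝ ∙ u)ᗮ) := {y | ∃ r : ℝ, r • u + (y : V) ∈ K} with hQ
  have hQimg : Subtype.val '' Q = (fun y => y - inner ℝ y u • u) '' K := by
    ext x
    simp only [Set.mem_image, hQ, Set.mem_ofPred_eq, Subtype.exists, exists_and_right,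
      exists_eq_right]
    constructor
    · rintro ⟨hx, r, hr⟩
      refine ⟨_, hr, ?_⟩
      have hxu : inner ℝ x u = 0 := by
        rw [Submodule.mem_orthogonal_singleton_iff_inner_left] at hx
        exact hx
      rw [inner_add_left, inner_smul_left, hxu, real_inner_self_eq_norm_sq, hu]
      simp
    · rintro ⟨k, hk, rfl⟩
      refine ⟨?_, inner ℝ k u, ?_⟩
      · rw [Submodule.mem_orthogonal_singleton_iff_inner_left, inner_sub_left, inner_smul_left,
          real_inner_self_eq_norm_sq, hu]
        simp
      · simpa using hk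
  have hQm : MeasurableSet Q := by
    have : Q = Subtype.val ⁻¹' ((fun y => y - inner ℝ y u • u) '' K) := by
      rw [← hQimg]
      exact (Set.preimage_image_eq _ Subtype.val_injective).symm
    rw [this]
    exact (hPc.isClosed.preimage continuous_subtype_val).measurableSet
  have hfin : Module.finrank ℝ ((ℝ ∙ u)ᗮ) = d := by
    have : Fact (Module.finrank ℝ V = d + 1) := ⟨hd⟩
    exact Submodule.finrank_orthogonal_span_singleton hu0
  rw [volume_eq_lintegral_line u hu hsw.measurableSet,
    volume_eq_lintegral_line u hu hK.measurableSet]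
  have hfib : ∀ y : (ℝ ∙ u)ᗮ, volume {r : ℝ | r • u + (y : V) ∈ sweep K u} =
      volume {r : ℝ | r • u + (y : V) ∈ K} + Set.indicator Q (fun _ => (1 : ENNReal)) y := by
    intro y
    rw [fibre_sweep K hK hc u y hu]
    congr 1
  simp_rw [hfib]
  rw [lintegral_add_right _ (measurable_const.indicator hQm), lintegral_indicator_const hQm,
    one_mul]
  congr 1
  rw [← hQimg, isometry_subtype_coe.euclideanHausdorffMeasure_image, ← hfin,
    InnerProductSpace.euclideanHausdorffMeasure_eq_volume]

end Shadow

end Crest.Agent.S0356.GenB
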