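import Crest.Agent.Lib.S0356.Helper85Defs

/-!
# S0356 — package F' (helper13): the polar description `polar_eq` for a general block map

`⋂_{|u|=1} {x | ⟨x,u⟩ ≤ (1/2)·Hfunb b a u} = PiSetb b a`, pure inequalities
(general-block version of helper14's S0355 package F).
Complete: every proof in this file is finished.
-/

set_option autoImplicit false
set_option linter.unusedSectionVars false
open MeasureTheory

namespace Crest.Agent.S0356.Helper13
open Crest.Agent.S0356.Helper85

/-- The one-block inequality: if all `|x i| ≤ a` and all `|x i - x j| ≤ a` on a block `B`, then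
`∑_B x u ≤ (a/2) (∑_B |u| + |∑_B u|)`. -/
theorem block_le {ι : Type*} (a : ℝ) (ha : 0 < a) (B : Finset ι) (x u : ι → ℝ)
    (h1 : ∀ i ∈ B, |x i| ≤ a) (h2 : ∀ i ∈ B, ∀ j ∈ B, |x i - x j| ≤ a) :
    ∑ i ∈ B, x i * u i ≤ a / 2 * (∑ i ∈ B, |u i| + |∑ i ∈ B, u i|) := by
  rcases B.eq_empty_or_nonempty with rfl | hne
  · simp
  obtain ⟨i0, hi0, hmax⟩ := Finset.exists_max_image B x hne
  obtain ⟨s, hs1, hs2⟩ : ∃ s : ℝ, (∀ i ∈ B, |x i - s| ≤ a / 2) ∧ |s| ≤ a / 2 := by
    refine ⟨max (x i0 - a / 2) (-(a / 2)), ?_, ?_⟩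
    · intro i hi
      have hm := hmax i hi
      have h3 := abs_le.mp (h2 i0 hi0 i hi)
      have h4 := abs_le.mp (h1 i hi)
      have hle : max (x i0 - a / 2) (-(a / 2)) ≤ x i + a / 2 :=
        max_le (by linarith [h3.2]) (by linarith [h4.1])
      have hge : x i0 - a / 2 ≤ max (x i0 - a / 2) (-(a / 2)) := le_max_left _ _
      rw [abs_le]
      constructor <;> linarith
    · have h4 := abs_le.mp (h1 i0 hi0)
      have hge : -(a / 2) ≤ max (x i0 - a / 2) (-(a / 2)) := le_max_right _ _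
      have hle : max (x i0 - a / 2) (-(a / 2)) ≤ a / 2 :=
        max_le (by linarith [h4.2]) (by linarith)
      rw [abs_le]
      constructor <;> linarith
  have key : ∑ i ∈ B, x i * u i = ∑ i ∈ B, (x i - s) * u i + s * ∑ i ∈ B, u i := by
    rw [Finset.mul_sum, ← Finset.sum_add_distrib]
    apply Finset.sum_congr rfl
    intro i _
    ring
  have e1 : ∑ i ∈ B, (x i - s) * u i ≤ a / 2 * ∑ i ∈ B, |u i| := by
    rw [Finset.mul_sum]
    apply Finset.sum_le_sum
    intro i hi
    calc (x i - s) * u i ≤ |(x i - s) * u i| := le_abs_self _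
      _ = |x i - s| * |u i| := abs_mul _ _
      _ ≤ a / 2 * |u i| := mul_le_mul_of_nonneg_right (hs1 i hi) (abs_nonneg _)
  have e2 : s * ∑ i ∈ B, u i ≤ a / 2 * |∑ i ∈ B, u i| := by
    calc s * ∑ i ∈ B, u i ≤ |s * ∑ i ∈ B, u i| := le_abs_self _
      _ = |s| * |∑ i ∈ B, u i| := abs_mul _ _
      _ ≤ a / 2 * |∑ i ∈ B, u i| := mul_le_mul_of_nonneg_right hs2 (abs_nonneg _)
  rw [key]
  linarith

theorem abs_single {ι : Type*} [DecidableEq ι] (i k : ι) :
    |(Pi.single i (1 : ℝ) : ι → ℝ) k| = (Pi.single i (1 : ℝ) : ι → ℝ) k := by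
  by_cases h : k = i
  · subst h; simp
  · simp [h]

section Blocks
variable {ι β : Type*} [Fintype ι] [DecidableEq ι] [Fintype β] [DecidableEq β]

/-- Coordinate formula for the real inner product on `EuclideanSpace ℝ ι`. -/
theorem inner_eq_sum (x u : EuclideanSpace ℝ ι) :
    inner ℝ x u = ∑ i, x.ofLp i * u.ofLp i := by
  rw [PiLp.inner_apply]
  apply Finset.sum_congr rfl
  intro i _
  simp [mul_comm]

theorem sum_mul_single (x : ι → ℝ) (i : ι) :
    ∑ k, x k * (Pi.single i (1 : ℝ) : ι → ℝ) k = x i := by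
  simp [Pi.single_apply]

theorem mem_blk (b : ι → β) (B : β) (i : ι) : i ∈ blk b B ↔ b i = B := by
  simp [blk]

theorem sum_blk_single (b : ι → β) (B : β) (i : ι) :
    ∑ k ∈ blk b B, (Pi.single i (1 : ℝ) : ι → ℝ) k = if b i = B then 1 else 0 := by
  rw [Finset.sum_pi_single']
  simp only [mem_blk]

/-- `Hfunb` is positively homogeneous. -/
theorem Hfunb_smul (b : ι → β) (a : β → ℝ) (c : ℝ) (hc : 0 ≤ c) (v : ι → ℝ) :
    Hfunb b a (c • v) = c * Hfunb b a v := by
  unfold Hfunb
  simp only [Pi.smul_apply, smul_eq_mul, ← Finset.mul_sum, abs_mul, abs_of_nonneg hc]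
  rw [mul_add, Finset.mul_sum, Finset.mul_sum]
  congr 1 <;> exact Finset.sum_congr rfl (fun _ _ => by ring)

theorem Hfunb_neg (b : ι → β) (a : β → ℝ) (v : ι → ℝ) : Hfunb b a (-v) = Hfunb b a v := by
  unfold Hfunb
  simp only [Pi.neg_apply, abs_neg, Finset.sum_neg_distrib]

/-- `H(e_i) = 2 a_{b i}`. -/
theorem Hfunb_single (b : ι → β) (a : β → ℝ) (i : ι) :
    Hfunb b a (Pi.single i (1 : ℝ)) = 2 * a (b i) := by
  unfold Hfunb
  simp only [abs_single, sum_blk_single]
  have h1 : ∑ k, a (b k) * (Pi.single i (1 : ℝ) : ι → ℝ) k = a (b i) := by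
    simp [Pi.single_apply]
  have h2 : ∑ B, a B * |if b i = B then (1 : ℝ) else 0| = a (b i) := by
    have h3 : ∀ B, a B * |if b i = B then (1 : ℝ) else 0| = if b i = B then a B else 0 := by
      intro B
      split_ifs <;> simp
    simp [h3]
  rw [h1, h2]
  ring

/-- `H(e_i - e_j) ≤ 2 a_{b i}` for `i, j` in the same block. -/
theorem Hfunb_single_sub (b : ι → β) (a : β → ℝ) (ha : ∀ i, 0 < a (b i)) (i j : ι)
    (hij : b i = b j) :
    Hfunb b a (Pi.single i (1 : ℝ) - Pi.single j (1 : ℝ)) ≤ 2 * a (b i) := by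
  unfold Hfunb
  have hb : ∀ B, ∑ k ∈ blk b B, (Pi.single i (1 : ℝ) - Pi.single j (1 : ℝ) : ι → ℝ) k = 0 := by
    intro B
    simp only [Pi.sub_apply, Finset.sum_sub_distrib, sum_blk_single, hij]
    simp
  have hs : ∑ k, a (b k) * |(Pi.single i (1 : ℝ) - Pi.single j (1 : ℝ) : ι → ℝ) k|
      ≤ 2 * a (b i) := by
    calc ∑ k, a (b k) * |(Pi.single i (1 : ℝ) - Pi.single j (1 : ℝ) : ι → ℝ) k|
        ≤ ∑ k, a (b k) * (|(Pi.single i (1 : ℝ) : ι → ℝ) k|
            + |(Pi.single j (1 : ℝ) : ι → ℝ) k|) := by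
          apply Finset.sum_le_sum
          intro k _
          exact mul_le_mul_of_nonneg_left (abs_sub _ _) (ha k).le
      _ = 2 * a (b i) := by
          simp only [abs_single, mul_add, Finset.sum_add_distrib]
          have e : ∀ l : ι, ∑ k, a (b k) * (Pi.single l (1 : ℝ) : ι → ℝ) k = a (b l) := by
            intro l
            simp [Pi.single_apply]
          rw [e i, e j, hij]
          ring
  simp only [hb, abs_zero, mul_zero, Finset.sum_const_zero, add_zero]
  exact hs

/-- From the unit sphere to all vectors, by homogeneity. -/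
theorem test_all (b : ι → β) (a : β → ℝ) (x : EuclideanSpace ℝ ι)
    (hx : ∀ u ∈ Metric.sphere (0 : EuclideanSpace ℝ ι) 1,
      inner ℝ x u ≤ 1 / 2 * Hfunb b a u.ofLp)
    (v : EuclideanSpace ℝ ι) : inner ℝ x v ≤ 1 / 2 * Hfunb b a v.ofLp := by
  by_cases hv : v = 0
  · subst hv
    simp [Hfunb]
  have hn : 0 < ‖v‖ := norm_pos_iff.mpr hv
  have hu : (‖v‖⁻¹ • v) ∈ Metric.sphere (0 : EuclideanSpace ℝ ι) 1 := by
    rw [mem_sphere_zero_iff_norm, norm_smul, norm_inv, norm_norm, inv_mul_cancel₀ hn.ne']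
  have h := hx _ hu
  rw [inner_smul_right] at h
  have h5 : (‖v‖⁻¹ • v).ofLp = ‖v‖⁻¹ • v.ofLp := rfl
  rw [h5, Hfunb_smul _ _ _ (inv_nonneg.mpr hn.le)] at h
  calc inner ℝ x v = ‖v‖ * (‖v‖⁻¹ * inner ℝ x v) := by field_simp
    _ ≤ ‖v‖ * (1 / 2 * (‖v‖⁻¹ * Hfunb b a v.ofLp)) := mul_le_mul_of_nonneg_left h hn.le
    _ = 1 / 2 * Hfunb b a v.ofLp := by field_simp

/-- Package F' : the polar description, for a general block map. -/
theorem polar_eq (b : ι → β) (a : β → ℝ) (ha : ∀ i, 0 < a (b i)) :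
    (⋂ u ∈ Metric.sphere (0 : EuclideanSpace ℝ ι) 1,
        {x : EuclideanSpace ℝ ι | inner ℝ x u ≤ 1 / 2 * Hfunb b a u.ofLp}) =
      {x : EuclideanSpace ℝ ι | x.ofLp ∈ PiSetb b a} := by
  ext x
  simp only [Set.mem_iInter, Set.mem_ofPred_eq]
  constructor
  · intro hx
    have T := test_all b a x hx
    have t1 : ∀ w : ι → ℝ, ∑ k, x.ofLp k * w k ≤ 1 / 2 * Hfunb b a w := by
      intro w
      have h := T (WithLp.toLp 2 w)
      rw [inner_eq_sum] at h
      exact h
    constructor
    · intro i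
      rw [abs_le]
      constructor
      · have h := t1 (-Pi.single i (1 : ℝ))
        rw [Hfunb_neg, Hfunb_single] at h
        have e : ∑ k, x.ofLp k * (-Pi.single i (1 : ℝ) : ι → ℝ) k = - x.ofLp i := by
          simp only [Pi.neg_apply, mul_neg, Finset.sum_neg_distrib, sum_mul_single]
        rw [e] at h
        linarith
      · have h := t1 (Pi.single i (1 : ℝ))
        rw [Hfunb_single, sum_mul_single] at h
        linarith
    · intro i j hij
      have key : ∀ i j : ι, b i = b j → x.ofLp i - x.ofLp j ≤ a (b i) := by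
        intro i j hij
        have h := t1 (Pi.single i (1 : ℝ) - Pi.single j (1 : ℝ))
        have e : ∑ k, x.ofLp k * (Pi.single i (1 : ℝ) - Pi.single j (1 : ℝ) : ι → ℝ) k
            = x.ofLp i - x.ofLp j := by
          simp only [Pi.sub_apply, mul_sub, Finset.sum_sub_distrib, sum_mul_single]
        rw [e] at h
        have hH := Hfunb_single_sub b a ha i j hij
        linarith
      rw [abs_le]
      constructor
      · have h := key j i hij.symm
        rw [← hij] at h
        linarith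
      · exact key i j hij
  · rintro ⟨h1, h2⟩ u _
    rw [inner_eq_sum]
    have hblock : ∀ B : β, ∑ i ∈ blk b B, x.ofLp i * u.ofLp i ≤
        1 / 2 * (∑ i ∈ blk b B, a (b i) * |u.ofLp i| + a B * |∑ j ∈ blk b B, u.ofLp j|) := by
      intro B
      rcases (blk b B).eq_empty_or_nonempty with hE | ⟨i0, hi0⟩
      · rw [hE]
        simp
      · have hbi : ∀ i ∈ blk b B, b i = B := fun i hi => (mem_blk b B i).mp hi
        have haB : 0 < a B := by
          have h := ha i0
          rwa [hbi i0 hi0] at h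
        have h := block_le (a B) haB (blk b B) x.ofLp u.ofLp
          (fun i hi => by
            have h := h1 i
            rwa [hbi i hi] at h)
          (fun i hi j hj => by
            have h := h2 i j ((hbi i hi).trans (hbi j hj).symm)
            rwa [hbi i hi] at h)
        have e : ∑ i ∈ blk b B, a (b i) * |u.ofLp i| = a B * ∑ i ∈ blk b B, |u.ofLp i| := by
          rw [Finset.mul_sum]
          exact Finset.sum_congr rfl (fun i hi => by rw [hbi i hi])
        rw [e]
        linarith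
    have s1 : ∑ i, x.ofLp i * u.ofLp i = ∑ B, ∑ i ∈ blk b B, x.ofLp i * u.ofLp i :=
      (Finset.sum_fiberwise Finset.univ b _).symm
    have s2 : ∑ i, a (b i) * |u.ofLp i| = ∑ B, ∑ i ∈ blk b B, a (b i) * |u.ofLp i| :=
      (Finset.sum_fiberwise Finset.univ b _).symm
    unfold Hfunb
    rw [s1, s2, ← Finset.sum_add_distrib, Finset.mul_sum]
    exact Finset.sum_le_sum (fun B _ => hblock B)

end Blocks

end Crest.Agent.S0356.Helper13
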