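import Crest.Agent.Lib.S0356.Helper85Defs

/-!
# S0356 — package D' (helper43): the facet prisms of `Kb b` are linear images of the cylinders

General-block version of `Crest.Agent.S0355.Helper43` (package D of S0355); complete proofs.
-/

set_option autoImplicit false
open MeasureTheory

namespace Crest.Agent.S0356.Helper43
open Crest.Agent.S0356.Helper85

theorem volume_image_rankOne {ι : Type*} [Fintype ι] [DecidableEq ι] (a c : ι → ℝ)
    (S : Set (ι → ℝ)) :
    volume ((fun y : ι → ℝ => y + (∑ j, c j * y j) • a) '' S) =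
      ENNReal.ofReal |1 + ∑ j, c j * a j| * volume S := by
  have hdet : (1 + Matrix.replicateCol (Fin 1) a * Matrix.replicateRow (Fin 1) c :
      Matrix ι ι ℝ).det = 1 + c ⬝ᵥ a :=
    Matrix.det_one_add_replicateCol_mul_replicateRow a c
  have hf : (fun y : ι → ℝ => y + (∑ j, c j * y j) • a) = fun y =>
      Matrix.toLin' (1 + Matrix.replicateCol (Fin 1) a * Matrix.replicateRow (Fin 1) c :
        Matrix ι ι ℝ) y := by
    funext y
    ext i
    rw [Matrix.toLin'_apply, Matrix.add_mulVec, Matrix.one_mulVec]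
    simp only [Pi.add_apply, Pi.smul_apply, smul_eq_mul, Matrix.mulVec, dotProduct,
      Matrix.mul_apply, Matrix.replicateCol_apply, Matrix.replicateRow_apply,
      Finset.univ_unique, Finset.sum_singleton]
    congr 1
    rw [Finset.sum_mul]
    refine Finset.sum_congr rfl (fun j _ => ?_)
    ring
  rw [hf, MeasureTheory.Measure.addHaar_image_linearMap, LinearMap.det_toLin', hdet]
  simp only [dotProduct]

theorem volume_image_update {ι : Type*} [Fintype ι] [DecidableEq ι] (i : ι) (u : ι → ℝ)
    (S : Set (ι → ℝ)) :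
    volume ((fun y : ι → ℝ => Function.update y i 0 + y i • u) '' S) =
      ENNReal.ofReal |u i| * volume S := by
  have hf : (fun y : ι → ℝ => Function.update y i 0 + y i • u) =
      fun y : ι → ℝ => y + (∑ j, (Pi.single i (1 : ℝ) : ι → ℝ) j * y j) •
        (u - Pi.single i (1 : ℝ)) := by
    funext y
    have hsum : ∑ j, (Pi.single i (1 : ℝ) : ι → ℝ) j * y j = y i := by
      rw [Finset.sum_eq_single i]
      · simp
      · intro j _ hj
        simp [hj]
      · intro h
        exact absurd (Finset.mem_univ i) h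
    rw [hsum]
    ext k
    by_cases hk : k = i
    · subst hk
      simp
      ring
    · simp [hk]
  rw [hf, volume_image_rankOne]
  have hdet : 1 + ∑ j, (Pi.single i (1 : ℝ) : ι → ℝ) j *
      ((u - Pi.single i (1 : ℝ) : ι → ℝ) j) = u i := by
    rw [Finset.sum_eq_single i]
    · simp
    · intro j _ hj
      simp [hj]
    · intro h
      exact absurd (Finset.mem_univ i) h
  rw [hdet]

section Blocks
variable {ι β : Type*} [Fintype ι] [DecidableEq ι] [Fintype β] [DecidableEq β]

omit [DecidableEq ι] [Fintype β] in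
theorem mem_blk (b : ι → β) (B : β) (j : ι) : j ∈ blk b B ↔ b j = B := by
  simp [blk]

omit [DecidableEq ι] [Fintype β] in
theorem self_mem_blk (b : ι → β) (i : ι) : i ∈ blk b (b i) := by
  simp [blk]

omit [DecidableEq ι] [Fintype β] in
theorem notMem_blk_of_ne (b : ι → β) (i : ι) (C : β) (hC : C ≠ b i) : i ∉ blk b C := by
  simp only [blk, Finset.mem_filter, Finset.mem_univ, true_and]
  exact fun h => hC h.symm

omit [Fintype β] in
theorem sweep_facet_coord_eq (b : ι → β) (i : ι) (u : ι → ℝ) :
    sweep {y : ι → ℝ | y ∈ Kb b ∧ y i = 0} u =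
      (fun y : ι → ℝ => Function.update y i 0 + y i • u) '' Cylb b i := by
  ext p
  constructor
  · rintro ⟨x, ⟨hx, hxi⟩, t, ht, rfl⟩
    have hupd : Function.update (Function.update x i t) i 0 = x := by
      rw [Function.update_idem, ← hxi, Function.update_eq_self]
    refine ⟨Function.update x i t, ⟨?_, ?_, ?_⟩, ?_⟩
    · simp [ht.1]
    · simp [ht.2]
    · rw [hupd]; exact hx
    · simp only [hupd, Function.update_self]
  · rintro ⟨y, ⟨h0, h1, hK⟩, rfl⟩
    exact ⟨Function.update y i 0, ⟨hK, by simp⟩, y i, ⟨h0, h1⟩, rfl⟩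

set_option linter.unusedSectionVars false in
theorem volume_sweep_facet_coord (b : ι → β) (i : ι) (u : ι → ℝ) :
    volume (sweep {y : ι → ℝ | y ∈ Kb b ∧ y i = 0} u) =
      ENNReal.ofReal |u i| * volume (Cylb b i) := by
  rw [sweep_facet_coord_eq, volume_image_update]

/-- The partial block sum `∑_{j ∈ B, j ≠ i0} z j`, written as a full sum with 0/1 coefficients. -/
private def cB (B : Finset ι) (i0 : ι) (j : ι) : ℝ :=
  if j ∈ B.erase i0 then 1 else 0

private theorem sum_cB (B : Finset ι) (i0 : ι) (z : ι → ℝ) :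
    ∑ j, cB B i0 j * z j = ∑ j ∈ B.erase i0, z j := by
  simp only [cB, ite_mul, one_mul, zero_mul]
  rw [Finset.sum_ite_mem, Finset.univ_inter]

private theorem sum_cB_add (B : Finset ι) (i0 : ι) (z w : ι → ℝ) :
    ∑ j, cB B i0 j * (z + w) j = ∑ j, cB B i0 j * z j + ∑ j, cB B i0 j * w j := by
  rw [← Finset.sum_add_distrib]
  exact Finset.sum_congr rfl (fun j _ => by simp [mul_add])

private theorem sum_cB_smul (B : Finset ι) (i0 : ι) (t : ℝ) (z : ι → ℝ) :
    ∑ j, cB B i0 j * (t • z) j = t * ∑ j, cB B i0 j * z j := by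
  rw [Finset.mul_sum]
  exact Finset.sum_congr rfl (fun j _ => by simp; ring)

private theorem sum_cB_single (B : Finset ι) (i0 : ι) :
    ∑ j, cB B i0 j * (Pi.single i0 (1 : ℝ) : ι → ℝ) j = 0 := by
  rw [sum_cB]
  exact Finset.sum_eq_zero (fun j hj => by
    simp [(Finset.mem_erase.mp hj).1])

omit [Fintype β] in
theorem sweep_facet_sum_eq (b : ι → β) (i0 : ι) (u : ι → ℝ) :
    sweep {y : ι → ℝ | y ∈ Kb b ∧ ∑ j ∈ blk b (b i0), y j = 1} u =
      (fun z : ι → ℝ => Pi.single i0 (1 : ℝ) + z) ''
        ((fun y : ι → ℝ => y + (∑ j, cB (blk b (b i0)) i0 j * y j) •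
            (-(Pi.single i0 (1 : ℝ)))) ''
          sweep {z : ι → ℝ | z ∈ Kb b ∧ z i0 = 0}
            (u + (∑ j, cB (blk b (b i0)) i0 j * u j) • Pi.single i0 (1 : ℝ))) := by
  set B : Finset ι := blk b (b i0) with hB
  have hi0 : i0 ∈ B := self_mem_blk b i0
  set e : ι → ℝ := Pi.single i0 (1 : ℝ) with he
  set su : ℝ := ∑ j, cB B i0 j * u j with hsu
  have hee : e i0 = 1 := by simp [he]
  have hek : ∀ k, k ≠ i0 → e k = 0 := fun k hk => by simp [he, hk]
  have hce : ∑ j, cB B i0 j * e j = 0 := sum_cB_single B i0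
  -- the key coordinate computation
  have key : ∀ (z : ι → ℝ) (t : ℝ),
      e + ((z + t • (u + su • e)) +
        (∑ j, cB B i0 j * (z + t • (u + su • e)) j) • (-e)) =
      (e + (z + (∑ j, cB B i0 j * z j) • (-e))) + t • u := by
    intro z t
    have h1 : ∑ j, cB B i0 j * (z + t • (u + su • e)) j =
        ∑ j, cB B i0 j * z j + t * su := by
      rw [sum_cB_add, sum_cB_smul, sum_cB_add, sum_cB_smul, hce]
      ring
    rw [h1]
    ext k
    by_cases hk : k = i0
    · subst hk
      simp only [Pi.add_apply, Pi.smul_apply, smul_eq_mul, Pi.neg_apply, hee]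
      ring
    · simp only [Pi.add_apply, Pi.smul_apply, smul_eq_mul, Pi.neg_apply, hek k hk]
      ring
  ext p
  constructor
  · rintro ⟨x, ⟨hx, hxs⟩, t, ht, rfl⟩
    have hsplit : x i0 + ∑ j ∈ B.erase i0, x j = 1 := by
      rw [Finset.add_sum_erase B x hi0]; exact hxs
    refine ⟨_, ⟨_, ⟨Function.update x i0 0, ⟨?_, by simp⟩, t, ht, rfl⟩, rfl⟩, ?_⟩
    · -- update x i0 0 ∈ Kb b
      refine ⟨fun i => ?_, fun C => ?_⟩
      · by_cases hi : i = i0
        · subst hi; simp
        · rw [Function.update_of_ne hi]; exact hx.1 i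
      · by_cases hC : C = b i0
        · subst hC
          rw [← Finset.add_sum_erase (blk b (b i0)) _ hi0]
          have : ∑ j ∈ (blk b (b i0)).erase i0, Function.update x i0 0 j =
              ∑ j ∈ (blk b (b i0)).erase i0, x j :=
            Finset.sum_congr rfl (fun j hj =>
              Function.update_of_ne (Finset.mem_erase.mp hj).1 _ _)
          rw [this, Function.update_self]
          have := hx.1 i0
          linarith
        · have hi0' : i0 ∉ blk b C := notMem_blk_of_ne b i0 C hC
          have : ∑ j ∈ blk b C, Function.update x i0 0 j = ∑ j ∈ blk b C, x j :=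
            Finset.sum_congr rfl (fun j hj =>
              Function.update_of_ne (ne_of_mem_of_not_mem hj hi0') _ _)
          rw [this]; exact hx.2 C
    · -- the point
      show e + ((Function.update x i0 0 + t • (u + su • e)) +
        (∑ j, cB B i0 j * (Function.update x i0 0 + t • (u + su • e)) j) • (-e)) = x + t • u
      rw [key]
      congr 1
      have hs : ∑ j, cB B i0 j * Function.update x i0 0 j = ∑ j ∈ B.erase i0, x j := by
        rw [sum_cB]
        exact Finset.sum_congr rfl (fun j hj =>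
          Function.update_of_ne (Finset.mem_erase.mp hj).1 _ _)
      rw [hs]
      ext k
      by_cases hk : k = i0
      · subst hk
        simp only [Pi.add_apply, Pi.smul_apply, smul_eq_mul, Pi.neg_apply, hee,
          Function.update_self]
        linarith
      · simp only [Pi.add_apply, Pi.smul_apply, smul_eq_mul, Pi.neg_apply, hek k hk,
          Function.update_of_ne hk]
        ring
  · rintro ⟨_, ⟨_, ⟨z, ⟨hz, hzi⟩, t, ht, rfl⟩, rfl⟩, rfl⟩
    have hsplit : ∑ j ∈ B.erase i0, z j = ∑ j ∈ B, z j := by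
      rw [← Finset.add_sum_erase B z hi0, hzi, zero_add]
    have hs : ∑ j, cB B i0 j * z j = ∑ j ∈ B, z j := by rw [sum_cB, hsplit]
    have hzB : ∑ j ∈ B, z j ≤ 1 := hz.2 (b i0)
    have hsumB : ∑ j ∈ B, (e + (z + (∑ j, cB B i0 j * z j) • (-e))) j = 1 := by
      rw [← Finset.add_sum_erase B _ hi0]
      have : ∑ j ∈ B.erase i0, (e + (z + (∑ j, cB B i0 j * z j) • (-e))) j =
          ∑ j ∈ B.erase i0, z j :=
        Finset.sum_congr rfl (fun j hj => by
          simp only [Pi.add_apply, Pi.smul_apply, smul_eq_mul, Pi.neg_apply,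
            hek j (Finset.mem_erase.mp hj).1]
          ring)
      rw [this]
      simp only [Pi.add_apply, Pi.smul_apply, smul_eq_mul, Pi.neg_apply, hee, hs, hzi, hsplit]
      ring
    refine ⟨e + (z + (∑ j, cB B i0 j * z j) • (-e)), ⟨⟨fun i => ?_, fun C => ?_⟩, hsumB⟩,
      t, ht, ?_⟩
    · by_cases hi : i = i0
      · subst hi
        simp only [Pi.add_apply, Pi.smul_apply, smul_eq_mul, Pi.neg_apply, hee, hs, hzi]
        linarith
      · simp only [Pi.add_apply, Pi.smul_apply, smul_eq_mul, Pi.neg_apply, hek i hi]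
        have := hz.1 i
        linarith
    · by_cases hC : C = b i0
      · subst hC
        exact hsumB.le
      · have hi0' : i0 ∉ blk b C := notMem_blk_of_ne b i0 C hC
        have : ∑ j ∈ blk b C, (e + (z + (∑ j, cB B i0 j * z j) • (-e))) j =
            ∑ j ∈ blk b C, z j :=
          Finset.sum_congr rfl (fun j hj => by
            simp only [Pi.add_apply, Pi.smul_apply, smul_eq_mul, Pi.neg_apply,
              hek j (ne_of_mem_of_not_mem hj hi0')]
            ring)
        rw [this]; exact hz.2 C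
    · exact (key z t).symm

theorem volume_sweep_facet_sum (b : ι → β) (i : ι) (u : ι → ℝ) :
    volume (sweep {y : ι → ℝ | y ∈ Kb b ∧ ∑ j ∈ blk b (b i), y j = 1} u) =
      ENNReal.ofReal |∑ j ∈ blk b (b i), u j| * volume (Cylb b i) := by
  rw [sweep_facet_sum_eq b i u, Set.image_add_left, measure_preimage_add,
    volume_image_rankOne, volume_sweep_facet_coord]
  have h1 : (1 : ℝ) + ∑ j, cB (blk b (b i)) i j * (-(Pi.single i (1 : ℝ)) : ι → ℝ) j = 1 := by
    have : ∑ j, cB (blk b (b i)) i j * (-(Pi.single i (1 : ℝ)) : ι → ℝ) j =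
        -∑ j, cB (blk b (b i)) i j * (Pi.single i (1 : ℝ) : ι → ℝ) j := by
      rw [← Finset.sum_neg_distrib]
      exact Finset.sum_congr rfl (fun j _ => by simp)
    rw [this, sum_cB_single, neg_zero, add_zero]
  have h2 : (u + (∑ j, cB (blk b (b i)) i j * u j) • (Pi.single i (1 : ℝ) : ι → ℝ)) i =
      ∑ j ∈ blk b (b i), u j := by
    simp only [Pi.add_apply, Pi.smul_apply, smul_eq_mul, Pi.single_eq_same, mul_one]
    rw [sum_cB, Finset.add_sum_erase (blk b (b i)) u (self_mem_blk b i)]
  rw [h1, h2, abs_one, ENNReal.ofReal_one, one_mul]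

end Blocks

end Crest.Agent.S0356.Helper43
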