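import Crest.Agent.Lib.S0356.Helper43D

/-!
# S0356 — package G' (helper43): the volume of the sweep of `Kb b`

`volume (sweep (Kb b) u) = volume (Kb b) + ofReal (1/2 * Hfunb b (aB b) u)`, from the generic sweep
decomposition over the upper facets (package A, taken as a hypothesis `hA` at `E = ι → ℝ`,
`J = ι ⊕ β`), the facet prisms (package D') and the cylinder volumes (package C', hypothesis
`hCyl`).
-/

set_option autoImplicit false
open MeasureTheory

namespace Crest.Agent.S0356.Helper43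
open Crest.Agent.S0356.Helper85

section Blocks
variable {ι β : Type*} [Fintype ι] [DecidableEq ι] [Fintype β] [DecidableEq β]

/-- The linear functionals cutting out `Kb b`: `-y_i` and the block sums. -/
noncomputable def ell (b : ι → β) : ι ⊕ β → (ι → ℝ) →ₗ[ℝ] ℝ
  | Sum.inl i => -(LinearMap.proj i)
  | Sum.inr B => ∑ j ∈ blk b B, LinearMap.proj j

/-- The right-hand sides. -/
def bb : ι ⊕ β → ℝ
  | Sum.inl _ => 0
  | Sum.inr _ => 1

omit [DecidableEq ι] [Fintype β] in
theorem ell_inl (b : ι → β) (i : ι) (x : ι → ℝ) : ell b (Sum.inl i) x = - x i := by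
  simp [ell]

omit [DecidableEq ι] [Fintype β] in
theorem ell_inr (b : ι → β) (B : β) (x : ι → ℝ) :
    ell b (Sum.inr B) x = ∑ j ∈ blk b B, x j := by
  simp [ell]

omit [DecidableEq ι] [Fintype β] in
theorem Kb_eq (b : ι → β) : Kb b = {x : ι → ℝ | ∀ j, ell b j x ≤ bb j} := by
  ext x
  simp only [Kb, Set.mem_ofPred_eq, Sum.forall, ell_inl, ell_inr, bb, neg_nonpos]

omit [DecidableEq ι] [Fintype β] in
theorem isClosed_Kb (b : ι → β) : IsClosed (Kb b) := by
  have h1 : IsClosed {y : ι → ℝ | ∀ i, 0 ≤ y i} := by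
    simp only [Set.ofPred_forall]
    exact isClosed_iInter fun i => isClosed_le continuous_const (continuous_apply i)
  have h2 : IsClosed {y : ι → ℝ | ∀ B : β, ∑ j ∈ blk b B, y j ≤ 1} := by
    simp only [Set.ofPred_forall]
    exact isClosed_iInter fun B =>
      isClosed_le (continuous_finsetSum _ fun i _ => continuous_apply i) continuous_const
  exact h1.inter h2

omit [DecidableEq ι] [Fintype β] in
theorem Kb_le_one {b : ι → β} {y : ι → ℝ} (hy : y ∈ Kb b) (i : ι) : y i ≤ 1 :=
  (Finset.single_le_sum (f := y) (fun j _ => hy.1 j) (self_mem_blk b i)).trans (hy.2 (b i))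

omit [DecidableEq ι] [Fintype β] in
theorem isCompact_Kb (b : ι → β) : IsCompact (Kb b) := by
  refine IsCompact.of_isClosed_subset
    (isCompact_univ_pi fun _ : ι => isCompact_Icc (a := (0 : ℝ)) (b := 1)) (isClosed_Kb b) ?_
  intro y hy i _
  exact ⟨hy.1 i, Kb_le_one hy i⟩

omit [Fintype β] in
theorem ell_inl_single (b : ι → β) (i i' : ι) :
    ell b (Sum.inl i) (Pi.single i' (1 : ℝ)) = if i = i' then -1 else 0 := by
  rw [ell_inl, Pi.single_apply]
  split_ifs <;> simp

omit [Fintype β] in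
theorem ell_inr_single (b : ι → β) (B : β) (i' : ι) :
    ell b (Sum.inr B) (Pi.single i' (1 : ℝ)) = if i' ∈ blk b B then 1 else 0 := by
  rw [ell_inr]
  simp only [Pi.single_apply]
  rw [Finset.sum_ite_eq']

omit [DecidableEq ι] [Fintype β] in
/-- A block with positive sum has a member with a positive coordinate. -/
theorem exists_pos_of_blk_sum_pos (b : ι → β) (u : ι → ℝ) (B : β)
    (hB : 0 < ∑ j ∈ blk b B, u j) : ∃ i ∈ blk b B, 0 < u i := by
  by_contra hcon
  push Not at hcon
  exact absurd hB (not_lt.mpr (Finset.sum_nonpos hcon))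

omit [Fintype β] in
/-- Two distinct facets that are both "upper" for `u` are not proportional along `u`. -/
theorem ell_indep (b : ι → β) (u : ι → ℝ) :
    ∀ j k, j ≠ k → 0 < ell b j u → 0 < ell b k u →
      ∃ w, ell b k u * ell b j w ≠ ell b j u * ell b k w := by
  rintro (i | B) (i' | B') hne hj hk
  · -- two coordinate facets
    have hii : i' ≠ i := fun h => hne (by rw [h])
    refine ⟨Pi.single i 1, ?_⟩
    rw [ell_inl_single, ell_inl_single, if_pos rfl, if_neg hii]
    intro h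
    linarith
  · -- coordinate facet and sum facet
    have hk' := hk
    have hj' := hj
    rw [ell_inr] at hk'
    rw [ell_inl] at hj'
    obtain ⟨i'', hi'', hpos⟩ := exists_pos_of_blk_sum_pos b u B' hk'
    have hne'' : i ≠ i'' := by
      rintro rfl
      linarith
    refine ⟨Pi.single i'' 1, ?_⟩
    rw [ell_inl_single, ell_inr_single, if_pos hi'', if_neg hne'']
    intro h
    linarith
  · -- sum facet and coordinate facet
    have hk' := hk
    have hj' := hj
    rw [ell_inl] at hk'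
    rw [ell_inr] at hj'
    obtain ⟨i'', hi'', hpos⟩ := exists_pos_of_blk_sum_pos b u B hj'
    have hne'' : i' ≠ i'' := by
      rintro rfl
      linarith
    refine ⟨Pi.single i'' 1, ?_⟩
    rw [ell_inl_single, ell_inr_single, if_pos hi'', if_neg hne'']
    intro h
    linarith
  · -- two sum facets
    have hBB : B ≠ B' := fun h => hne (by rw [h])
    have hj' := hj
    rw [ell_inr] at hj'
    obtain ⟨i'', hi'', -⟩ := exists_pos_of_blk_sum_pos b u B hj'
    have hn : i'' ∉ blk b B' := by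
      rw [mem_blk] at hi'' ⊢
      rw [hi'']
      exact hBB
    refine ⟨Pi.single i'' 1, ?_⟩
    rw [ell_inr_single, ell_inr_single, if_pos hi'', if_neg hn]
    intro h
    linarith

omit [DecidableEq ι] in
theorem volKb_nonneg (b : ι → β) : 0 ≤ volKb b := by
  unfold volKb
  exact Finset.prod_nonneg fun B _ => by positivity

omit [DecidableEq ι] in
theorem aB_nonneg (b : ι → β) (B : β) : 0 ≤ aB b B := by
  unfold aB
  exact mul_nonneg (Nat.cast_nonneg _) (volKb_nonneg b)

omit [DecidableEq ι] in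
/-- Block sums of `a_B u_j` reassemble to the full sum. -/
theorem sum_blk_fiberwise (b : ι → β) (a : β → ℝ) (u : ι → ℝ) :
    ∑ B, a B * ∑ j ∈ blk b B, u j = ∑ j, a (b j) * u j := by
  rw [← Finset.sum_fiberwise Finset.univ b (fun j => a (b j) * u j)]
  refine Finset.sum_congr rfl (fun B _ => ?_)
  rw [Finset.mul_sum]
  refine Finset.sum_congr rfl (fun j hj => ?_)
  rw [(mem_blk b B j).mp hj]

omit [DecidableEq ι] in
/-- The "upper facet" form of the support-type function. -/
theorem upper_eq_half_Hfunb (b : ι → β) (a : β → ℝ) (u : ι → ℝ) :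
    ∑ i, max (-u i) 0 * a (b i) + ∑ B, max (∑ j ∈ blk b B, u j) 0 * a B =
      1 / 2 * Hfunb b a u := by
  have h1 : ∀ t : ℝ, max (-t) 0 = (|t| - t) / 2 := by
    intro t
    rcases le_total 0 t with h | h
    · rw [max_eq_right (by linarith), abs_of_nonneg h]; ring
    · rw [max_eq_left (by linarith), abs_of_nonpos h]; ring
  have h2 : ∀ t : ℝ, max t 0 = (|t| + t) / 2 := by
    intro t
    rcases le_total 0 t with h | h
    · rw [max_eq_left h, abs_of_nonneg h]; ring
    · rw [max_eq_right h, abs_of_nonpos h]; ring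
  have e1 : ∑ i, max (-u i) 0 * a (b i) =
      1 / 2 * ∑ i, a (b i) * |u i| - 1 / 2 * ∑ i, a (b i) * u i := by
    rw [Finset.mul_sum, Finset.mul_sum, ← Finset.sum_sub_distrib]
    exact Finset.sum_congr rfl (fun i _ => by rw [h1]; ring)
  have e2 : ∑ B, max (∑ j ∈ blk b B, u j) 0 * a B =
      1 / 2 * ∑ B, a B * |∑ j ∈ blk b B, u j| + 1 / 2 * ∑ B, a B * ∑ j ∈ blk b B, u j := by
    rw [Finset.mul_sum, Finset.mul_sum, ← Finset.sum_add_distrib]
    exact Finset.sum_congr rfl (fun B _ => by rw [h2]; ring)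
  rw [e1, e2, sum_blk_fiberwise]
  unfold Hfunb
  ring

theorem term_eq (t : ℝ) (c : ℝ) (_hc : 0 ≤ c) (v : ENNReal) (hv : v = ENNReal.ofReal c) :
    (if 0 < t then ENNReal.ofReal |t| * v else 0) = ENNReal.ofReal (max t 0 * c) := by
  subst hv
  split_ifs with h
  · rw [max_eq_left h.le, abs_of_pos h, ENNReal.ofReal_mul h.le]
  · rw [max_eq_right (not_lt.mp h)]; simp

/-- **Package G'** in hypothesis form: `hA` is the generic sweep decomposition (package A) at
`E = ι → ℝ`, `J = ι ⊕ β`; `hCyl` is the cylinder volume (package C'). -/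
theorem volume_sweep_Kb_of
    (hA : ∀ (ℓ : ι ⊕ β → (ι → ℝ) →ₗ[ℝ] ℝ) (c : ι ⊕ β → ℝ) (u : ι → ℝ),
      IsCompact {x : ι → ℝ | ∀ j, ℓ j x ≤ c j} →
      (∀ j k, j ≠ k → 0 < ℓ j u → 0 < ℓ k u → ∃ w, ℓ k u * ℓ j w ≠ ℓ j u * ℓ k w) →
      volume (sweep {x : ι → ℝ | ∀ j, ℓ j x ≤ c j} u) =
        volume {x : ι → ℝ | ∀ j, ℓ j x ≤ c j} +
          ∑ j ∈ Finset.univ.filter (fun j => 0 < ℓ j u),
            volume (sweep {x : ι → ℝ | (∀ k, ℓ k x ≤ c k) ∧ ℓ j x = c j} u))
    (b : ι → β) (hCyl : ∀ i, volume (Cylb b i) = ENNReal.ofReal (aB b (b i))) (u : ι → ℝ) :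
    volume (sweep (Kb b) u) = volume (Kb b) + ENNReal.ofReal (1 / 2 * Hfunb b (aB b) u) := by
  have hK : IsCompact {x : ι → ℝ | ∀ j, ell b j x ≤ bb j} := by
    rw [← Kb_eq]; exact isCompact_Kb b
  have h := hA (ell b) bb u hK (ell_indep b u)
  rw [← Kb_eq] at h
  rw [h, Finset.sum_filter, Fintype.sum_sum_type]
  congr 1
  have t1 : ∀ i : ι, (if 0 < ell b (Sum.inl i) u then
      volume (sweep {x : ι → ℝ | (∀ k, ell b k x ≤ bb k) ∧
        ell b (Sum.inl i) x = bb (Sum.inl i : ι ⊕ β)} u)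
      else 0) = ENNReal.ofReal (max (-u i) 0 * aB b (b i)) := by
    intro i
    have hset : {x : ι → ℝ | (∀ k, ell b k x ≤ bb k) ∧
        ell b (Sum.inl i) x = bb (Sum.inl i : ι ⊕ β)} = {y : ι → ℝ | y ∈ Kb b ∧ y i = 0} := by
      ext x
      rw [Kb_eq]
      simp only [Set.mem_ofPred_eq, ell_inl, bb, neg_eq_zero]
    rw [hset, volume_sweep_facet_coord, ell_inl, ← abs_neg (u i)]
    exact term_eq (-u i) _ (aB_nonneg b _) _ (hCyl i)
  have t2 : ∀ B : β, (if 0 < ell b (Sum.inr B) u then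
      volume (sweep {x : ι → ℝ | (∀ k, ell b k x ≤ bb k) ∧
        ell b (Sum.inr B) x = bb (Sum.inr B : ι ⊕ β)} u)
      else 0) = ENNReal.ofReal (max (∑ j ∈ blk b B, u j) 0 * aB b B) := by
    intro B
    by_cases hpos : 0 < ell b (Sum.inr B) u
    · rw [if_pos hpos]
      rw [ell_inr] at hpos
      obtain ⟨i, hi, -⟩ := exists_pos_of_blk_sum_pos b u B hpos
      have hBi : b i = B := (mem_blk b B i).mp hi
      subst hBi
      have hset : {x : ι → ℝ | (∀ k, ell b k x ≤ bb k) ∧
          ell b (Sum.inr (b i)) x = bb (Sum.inr (b i) : ι ⊕ β)} =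
          {y : ι → ℝ | y ∈ Kb b ∧ ∑ j ∈ blk b (b i), y j = 1} := by
        ext x
        rw [Kb_eq]
        simp only [Set.mem_ofPred_eq, ell_inr, bb]
      rw [hset, volume_sweep_facet_sum, hCyl i, max_eq_left hpos.le, abs_of_pos hpos,
        ENNReal.ofReal_mul hpos.le]
    · rw [if_neg hpos]
      rw [ell_inr] at hpos
      rw [max_eq_right (not_lt.mp hpos), zero_mul, ENNReal.ofReal_zero]
  simp only [t1, t2]
  have hA1 : ∀ i ∈ (Finset.univ : Finset ι), 0 ≤ max (-u i) 0 * aB b (b i) :=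
    fun i _ => mul_nonneg (le_max_right _ _) (aB_nonneg b _)
  have hA2 : ∀ B ∈ (Finset.univ : Finset β), 0 ≤ max (∑ j ∈ blk b B, u j) 0 * aB b B :=
    fun B _ => mul_nonneg (le_max_right _ _) (aB_nonneg b _)
  rw [← ENNReal.ofReal_sum_of_nonneg hA1, ← ENNReal.ofReal_sum_of_nonneg hA2,
    ← ENNReal.ofReal_add (Finset.sum_nonneg hA1) (Finset.sum_nonneg hA2),
    upper_eq_half_Hfunb]

end Blocks

end Crest.Agent.S0356.Helper43
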