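import Crest.Agent.Lib.S0356.Helper55P

/-!
# S0356 — package E' (helper48): volume of the product of zonotopes `PiSetb b a`

`volume_Z` (the zonotope `{|y i| ≤ 1, |y i - y j| ≤ 1}` has volume `n + 1`) is proved directly:
the set is the a.e.-disjoint union of the unit cube and `n` unimodular shears of unit boxes
(indexed by the position of a negative minimum).  `volume_PiSetb` then follows from helper55's
block splitting (package P) and scaling.  All proofs are complete.
-/

set_option autoImplicit false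
open MeasureTheory
open scoped Pointwise

namespace Crest.Agent.S0356.Helper48
open Crest.Agent.S0356.Helper85

/-- determinant of the shear `y ↦ y - y i • v` when `v i = 0`. -/
theorem det_shear {ι : Type*} [Fintype ι] [DecidableEq ι] (i : ι) (v : ι → ℝ) (hv : v i = 0) :
    LinearMap.det ((LinearMap.id : (ι → ℝ) →ₗ[ℝ] (ι → ℝ)) -
      (LinearMap.proj i : (ι → ℝ) →ₗ[ℝ] ℝ).smulRight v) = 1 := by
  have h : ((LinearMap.id : (ι → ℝ) →ₗ[ℝ] (ι → ℝ)) -
      (LinearMap.proj i : (ι → ℝ) →ₗ[ℝ] ℝ).smulRight v) =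
      Matrix.toLin' (1 + Matrix.vecMulVec (-v) (Pi.single i (1:ℝ))) := by
    apply LinearMap.ext
    intro y
    funext j
    have e1 : (Matrix.toLin' (1 + Matrix.vecMulVec (-v) (Pi.single i (1:ℝ))) y) j =
        ∑ x, ((1 : Matrix ι ι ℝ) j x + (-v j) * (Pi.single i (1:ℝ) : ι → ℝ) x) * y x := by
      rw [Matrix.toLin'_apply]; rfl
    rw [e1]
    simp only [add_mul, Finset.sum_add_distrib, Matrix.one_apply, Pi.single_apply, ite_mul,
      one_mul, zero_mul, Finset.sum_ite_eq, Finset.mem_univ, if_true, mul_ite, mul_one, mul_zero,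
      Finset.sum_ite_eq']
    simp
    ring
  rw [h, LinearMap.det_toLin', Matrix.vecMulVec_eq (Fin 1),
    Matrix.det_one_add_replicateCol_mul_replicateRow]
  simp [dotProduct, Pi.single_apply, hv]

/-- The shear `y ↦ y - y i • v` (with `v i = 0`) preserves Lebesgue measure of preimages. -/
theorem volume_preimage_shear {ι : Type*} [Fintype ι] [DecidableEq ι] (i : ι) (v : ι → ℝ)
    (hv : v i = 0) (S : Set (ι → ℝ)) :
    volume ((fun y : ι → ℝ => y - y i • v) ⁻¹' S) = volume S := by
  have h := Measure.addHaar_preimage_linearMap (volume : Measure (ι → ℝ))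
    (f := (LinearMap.id : (ι → ℝ) →ₗ[ℝ] (ι → ℝ)) -
      (LinearMap.proj i : (ι → ℝ) →ₗ[ℝ] ℝ).smulRight v)
    (by rw [det_shear i v hv]; exact one_ne_zero) S
  rw [det_shear i v hv] at h
  have e : (fun y : ι → ℝ => y - y i • v) =
      ⇑((LinearMap.id : (ι → ℝ) →ₗ[ℝ] (ι → ℝ)) -
        (LinearMap.proj i : (ι → ℝ) →ₗ[ℝ] ℝ).smulRight v) := by
    funext y
    simp
  rw [e, h]
  simp

/-- The hyperplane `{y | y i = y j}` (`i ≠ j`) is Lebesgue-null. -/
theorem volume_eq_coord_null {ι : Type*} [Fintype ι] [DecidableEq ι] (i j : ι) (hij : i ≠ j) :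
    volume {y : ι → ℝ | y i = y j} = 0 := by
  have hS : (LinearMap.ker ((LinearMap.proj i : (ι → ℝ) →ₗ[ℝ] ℝ) - LinearMap.proj j)) ≠ ⊤ := by
    intro h
    have hm : (Pi.single i (1:ℝ) : ι → ℝ) ∈
        LinearMap.ker ((LinearMap.proj i : (ι → ℝ) →ₗ[ℝ] ℝ) - LinearMap.proj j) := by
      rw [h]; exact Submodule.mem_top
    rw [LinearMap.mem_ker] at hm
    simp [hij.symm] at hm
  have h0 := Measure.addHaar_submodule (volume : Measure (ι → ℝ)) _ hS
  have e : {y : ι → ℝ | y i = y j} =
      ((LinearMap.ker ((LinearMap.proj i : (ι → ℝ) →ₗ[ℝ] ℝ) - LinearMap.proj j) :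
        Submodule ℝ (ι → ℝ)) : Set (ι → ℝ)) := by
    ext y
    simp [LinearMap.mem_ker, sub_eq_zero]
  rw [e]; exact h0

/-- Package E, part 1: the zonotope `{|y i| ≤ 1, |y i - y j| ≤ 1}` has volume `n + 1`. -/
theorem volume_Z (ι : Type*) [Fintype ι] [Nonempty ι] :
    volume {y : ι → ℝ | (∀ i, |y i| ≤ 1) ∧ ∀ i j, |y i - y j| ≤ 1} =
      ((Fintype.card ι : ENNReal) + 1) := by
  classical
  set Z0 : Set (ι → ℝ) := Set.pi Set.univ (fun _ => Set.Icc (0:ℝ) 1) with hZ0
  set Box : ι → Set (ι → ℝ) := fun i =>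
    Set.pi Set.univ (fun j => if j = i then Set.Ico (-1:ℝ) 0 else Set.Icc (0:ℝ) 1) with hBox
  set vv : ι → (ι → ℝ) := fun i j => if j = i then 0 else 1 with hvv
  set Zi : ι → Set (ι → ℝ) := fun i => (fun y : ι → ℝ => y - y i • vv i) ⁻¹' Box i with hZi
  have hmem : ∀ i y, y ∈ Zi i ↔
      (-1 ≤ y i ∧ y i < 0 ∧ ∀ j, j ≠ i → (y i ≤ y j ∧ y j ≤ y i + 1)) := by
    intro i y
    simp only [hZi, hBox, hvv, Set.mem_preimage, Set.mem_pi, Set.mem_univ, forall_true_left,
      Pi.sub_apply, Pi.smul_apply, smul_eq_mul]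
    constructor
    · intro h
      have hi := h i
      simp only [if_true, mul_zero, sub_zero, Set.mem_Ico] at hi
      refine ⟨hi.1, hi.2, fun j hj => ?_⟩
      have hj' := h j
      simp only [if_neg hj, mul_one, Set.mem_Icc] at hj'
      constructor <;> linarith [hj'.1, hj'.2]
    · rintro ⟨h1, h2, h3⟩ j
      by_cases hj : j = i
      · subst hj
        simp only [if_true, mul_zero, sub_zero, Set.mem_Ico]
        exact ⟨h1, h2⟩
      · simp only [if_neg hj, mul_one, Set.mem_Icc]
        have := h3 j hj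
        constructor <;> linarith [this.1, this.2]
  have hZ : {y : ι → ℝ | (∀ i, |y i| ≤ 1) ∧ ∀ i j, |y i - y j| ≤ 1} = Z0 ∪ ⋃ i, Zi i := by
    ext y
    rw [Set.mem_union, Set.mem_iUnion]
    simp only [hmem]
    change ((∀ i, |y i| ≤ 1) ∧ ∀ i j, |y i - y j| ≤ 1) ↔ _
    constructor
    · rintro ⟨ha, hb⟩
      by_cases hnn : ∀ j, 0 ≤ y j
      · left
        simp only [hZ0, Set.mem_pi, Set.mem_univ, forall_true_left, Set.mem_Icc]
        intro j
        exact ⟨hnn j, (abs_le.mp (ha j)).2⟩
      · right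
        obtain ⟨i, hi⟩ := Finite.exists_min y
        obtain ⟨k, hk⟩ := not_forall.mp hnn
        have hk : y k < 0 := not_le.mp hk
        refine ⟨i, (abs_le.mp (ha i)).1, lt_of_le_of_lt (hi k) hk, fun j _ => ⟨hi j, ?_⟩⟩
        have := (abs_le.mp (hb j i)).2
        linarith
    · rintro (h0 | ⟨i, h1, h2, h3⟩)
      · simp only [hZ0, Set.mem_pi, Set.mem_univ, forall_true_left, Set.mem_Icc] at h0
        refine ⟨fun j => abs_le.mpr ⟨by linarith [(h0 j).1], (h0 j).2⟩, fun j k => ?_⟩
        exact abs_le.mpr ⟨by linarith [(h0 j).1, (h0 k).2], by linarith [(h0 j).2, (h0 k).1]⟩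
      · have hall : ∀ j, y i ≤ y j ∧ y j ≤ y i + 1 := by
          intro j
          by_cases hj : j = i
          · subst hj; exact ⟨le_rfl, by linarith⟩
          · exact h3 j hj
        refine ⟨fun j => abs_le.mpr ⟨by linarith [(hall j).1], by linarith [(hall j).2]⟩,
          fun j k => abs_le.mpr ⟨by linarith [(hall j).1, (hall k).2],
            by linarith [(hall j).2, (hall k).1]⟩⟩
  have hvol0 : volume Z0 = 1 := by
    rw [hZ0, volume_pi_pi]
    simp
  have hvolBox : ∀ i, volume (Box i) = 1 := by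
    intro i
    simp only [hBox]
    rw [volume_pi_pi]
    apply Finset.prod_eq_one
    intro j _
    by_cases hj : j = i
    · simp [hj]
    · simp [hj]
  have hvoli : ∀ i, volume (Zi i) = 1 := fun i =>
    (volume_preimage_shear i (vv i) (by simp [hvv]) (Box i)).trans (hvolBox i)
  have hmeas0 : MeasurableSet Z0 := MeasurableSet.univ_pi (fun _ => measurableSet_Icc)
  have hmeasBox : ∀ i, MeasurableSet (Box i) := fun i =>
    MeasurableSet.univ_pi (fun j => by
      by_cases hj : j = i
      · simp only [hj, if_true]; exact measurableSet_Ico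
      · simp only [hj, if_false]; exact measurableSet_Icc)
  have hmeasi : ∀ i, MeasurableSet (Zi i) := fun i =>
    (hmeasBox i).preimage
      ((continuous_id.sub ((continuous_apply i).smul continuous_const)).measurable)
  have hd0 : Disjoint Z0 (⋃ i, Zi i) := by
    rw [Set.disjoint_left]
    intro y h0 h1
    simp only [Set.mem_iUnion, hmem] at h1
    obtain ⟨i, _, h2, _⟩ := h1
    simp only [hZ0, Set.mem_pi, Set.mem_univ, forall_true_left, Set.mem_Icc] at h0
    linarith [(h0 i).1]
  have hdi : Pairwise (Function.onFun (AEDisjoint volume) Zi) := by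
    intro i j hij
    refine measure_mono_null ?_ (volume_eq_coord_null i j hij)
    rintro y ⟨hyi, hyj⟩
    rw [hmem] at hyi hyj
    have a1 := (hyi.2.2 j (Ne.symm hij)).1
    have a2 := (hyj.2.2 i hij).1
    exact le_antisymm a1 a2
  rw [hZ, measure_union hd0 (MeasurableSet.iUnion hmeasi),
    measure_iUnion₀ hdi (fun i => (hmeasi i).nullMeasurableSet), hvol0]
  simp [hvoli, add_comm]

/-- The scaled zonotope, for any finite index type (empty allowed: volume `1`). -/
theorem volume_Z_scaled (ι : Type*) [Fintype ι] (a : ℝ) (ha : Nonempty ι → 0 < a) :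
    volume {y : ι → ℝ | (∀ i, |y i| ≤ a) ∧ ∀ i j, |y i - y j| ≤ a} =
      ENNReal.ofReal (((Fintype.card ι : ℝ) + 1) * a ^ Fintype.card ι) := by
  rcases isEmpty_or_nonempty ι with hι | hι
  · have hset : {y : ι → ℝ | (∀ i, |y i| ≤ a) ∧ ∀ i j, |y i - y j| ≤ a} =
        Set.pi Set.univ (fun _ : ι => (Set.univ : Set ℝ)) := by
      ext y
      constructor
      · intro _; simp
      · intro _; exact ⟨fun i => isEmptyElim i, fun i => isEmptyElim i⟩
    rw [hset, volume_pi_pi]
    simp [Fintype.card_eq_zero]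
  · have ha' : 0 < a := ha hι
    have hset : {y : ι → ℝ | (∀ i, |y i| ≤ a) ∧ ∀ i j, |y i - y j| ≤ a} =
        a • {y : ι → ℝ | (∀ i, |y i| ≤ 1) ∧ ∀ i j, |y i - y j| ≤ 1} := by
      ext x
      rw [Set.mem_smul_set_iff_inv_smul_mem₀ ha'.ne']
      constructor
      · rintro ⟨h1, h2⟩
        refine ⟨fun i => ?_, fun i j => ?_⟩
        · simp only [Pi.smul_apply, smul_eq_mul, abs_mul, abs_inv, abs_of_pos ha']
          rw [inv_mul_le_iff₀ ha']; simpa using h1 i
        · simp only [Pi.smul_apply, smul_eq_mul, ← mul_sub, abs_mul, abs_inv, abs_of_pos ha']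
          rw [inv_mul_le_iff₀ ha']; simpa using h2 i j
      · rintro ⟨h1, h2⟩
        refine ⟨fun i => ?_, fun i j => ?_⟩
        · have := h1 i
          simp only [Pi.smul_apply, smul_eq_mul, abs_mul, abs_inv, abs_of_pos ha'] at this
          rw [inv_mul_le_iff₀ ha'] at this; simpa using this
        · have := h2 i j
          simp only [Pi.smul_apply, smul_eq_mul, ← mul_sub, abs_mul, abs_inv,
            abs_of_pos ha'] at this
          rw [inv_mul_le_iff₀ ha'] at this; simpa using this
    rw [hset, Measure.addHaar_smul, volume_Z]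
    have hfin : Module.finrank ℝ (ι → ℝ) = Fintype.card ι := by simp
    rw [hfin, abs_of_pos (pow_pos ha' _), mul_comm ((Fintype.card ι : ℝ) + 1),
      ENNReal.ofReal_mul (pow_pos ha' _).le]
    congr 1
    rw [ENNReal.ofReal_add (Nat.cast_nonneg _) zero_le_one]
    simp

section Blocks
variable {ι β : Type*} [Fintype ι] [DecidableEq ι] [Fintype β] [DecidableEq β]

/-- Package E': the volume of the product of zonotopes. -/
theorem volume_PiSetb (b : ι → β) (a : β → ℝ) (ha : ∀ i, 0 < a (b i)) :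
    volume (PiSetb b a) =
      ENNReal.ofReal (∏ B, (((blk b B).card : ℝ) + 1) * a B ^ (blk b B).card) := by
  have hset : PiSetb b a = {y : ι → ℝ | ∀ B : β, (fun j : {j : ι // b j = B} => y j.1) ∈
      {z : {j : ι // b j = B} → ℝ | (∀ j, |z j| ≤ a B) ∧ ∀ j k, |z j - z k| ≤ a B}} := by
    ext x
    constructor
    · rintro ⟨h1, h2⟩ B
      refine ⟨fun j => ?_, fun j k => ?_⟩
      · have := h1 j.1
        rw [j.2] at this
        exact this
      · have := h2 j.1 k.1 (j.2.trans k.2.symm)
        rw [j.2] at this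
        exact this
    · intro h
      refine ⟨fun i => (h (b i)).1 ⟨i, rfl⟩, fun i j hij => ?_⟩
      exact (h (b i)).2 ⟨i, rfl⟩ ⟨j, hij.symm⟩
  have hcard : ∀ B : β, Fintype.card {j : ι // b j = B} = (blk b B).card := by
    intro B
    rw [Fintype.card_subtype]
    rfl
  rw [hset, Helper55.volume_blockProd, ENNReal.ofReal_prod_of_nonneg]
  · refine Finset.prod_congr rfl fun B _ => ?_
    rw [volume_Z_scaled _ (a B) (fun ⟨j⟩ => by have := ha j.1; rwa [j.2] at this), hcard B]
  · intro B _
    by_cases h : (blk b B).card = 0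
    · simp [h]
    · obtain ⟨j, hj⟩ := Finset.card_pos.mp (Nat.pos_of_ne_zero h)
      have hjB : b j = B := by simpa [blk] using hj
      have hpos := ha j
      rw [hjB] at hpos
      positivity

end Blocks

end Crest.Agent.S0356.Helper48
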