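import Crest.Agent.Lib.S0356.Helper85Defs

/-!
# S0356 — package H' (helper51): `Kb b` is the convex hull of a finite set

`Kb b` is the Minkowski sum over the blocks `B` of the simplices
`TB b B = conv ({0} ∪ {e_j : b j = B})`, and `convexHull` commutes with finite Minkowski sums.
Complete proofs only.
-/

set_option autoImplicit false
open MeasureTheory
open scoped Pointwise

namespace Crest.Agent.S0356.Helper51
open Crest.Agent.S0356.Helper85

section Blocks
variable {ι β : Type*} [Fintype ι] [DecidableEq ι] [Fintype β] [DecidableEq β]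

/-- The vertices of the block simplex: `0` and the basis vectors of the block. -/
def VB (b : ι → β) (B : β) : Set (ι → ℝ) :=
  {0} ∪ (fun j : ι => (Pi.single j (1 : ℝ) : ι → ℝ)) '' {j | b j = B}

/-- The block simplex, embedded in `ι → ℝ` (zero outside the block). -/
def TB (b : ι → β) (B : β) : Set (ι → ℝ) :=
  {y | (∀ i, 0 ≤ y i) ∧ (∀ i, b i ≠ B → y i = 0) ∧ ∑ j ∈ blk b B, y j ≤ 1}

omit [DecidableEq ι] [Fintype β] in
theorem mem_blk (b : ι → β) (B : β) (j : ι) : j ∈ blk b B ↔ b j = B := by
  simp [blk]

omit [Fintype β] [DecidableEq β] in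
theorem VB_finite (b : ι → β) (B : β) : (VB b B).Finite :=
  (Set.finite_singleton 0).union ((Set.toFinite _).image _)

omit [DecidableEq ι] [Fintype β] in
theorem convex_TB (b : ι → β) (B : β) : Convex ℝ (TB b B) := by
  intro x hx y hy s t hs ht hst
  refine ⟨fun i => ?_, fun i hi => ?_, ?_⟩
  · have h1 := hx.1 i
    have h2 := hy.1 i
    simp only [Pi.add_apply, Pi.smul_apply, smul_eq_mul]
    positivity
  · simp only [Pi.add_apply, Pi.smul_apply, smul_eq_mul, hx.2.1 i hi, hy.2.1 i hi]
    ring
  · have h1 := hx.2.2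
    have h2 := hy.2.2
    simp only [Pi.add_apply, Pi.smul_apply, smul_eq_mul, Finset.sum_add_distrib,
      ← Finset.mul_sum]
    nlinarith

omit [Fintype β] in
theorem VB_subset_TB (b : ι → β) (B : β) : VB b B ⊆ TB b B := by
  rintro y (hy | ⟨j, hj, rfl⟩)
  · rw [Set.mem_singleton_iff] at hy
    subst hy
    refine ⟨fun i => le_refl _, fun i _ => rfl, ?_⟩
    simp
  · have hj' : b j = B := hj
    refine ⟨fun i => ?_, fun i hi => ?_, ?_⟩
    · by_cases h : i = j
      · subst h; simp
      · simp [h]
    · have h : i ≠ j := fun h => hi (h ▸ hj')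
      simp [h]
    · have hmem : j ∈ blk b B := (mem_blk b B j).2 hj'
      rw [Finset.sum_eq_single_of_mem j hmem]
      · simp
      · intro k _ hk
        simp [hk]

omit [Fintype β] in
theorem convexHull_VB (b : ι → β) (B : β) : convexHull ℝ (VB b B) = TB b B := by
  apply Set.Subset.antisymm
  · exact convexHull_min (VB_subset_TB b B) (convex_TB b B)
  · intro y hy
    obtain ⟨h0, hoff, hsum⟩ := hy
    have hzero : (0 : ι → ℝ) ∈ convexHull ℝ (VB b B) :=
      subset_convexHull ℝ _ (Or.inl rfl)
    -- `y` as a combination of the basis vectors of the block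
    have hy_eq : y = ∑ j ∈ blk b B, y j • (Pi.single j (1 : ℝ) : ι → ℝ) := by
      funext i
      rw [Finset.sum_apply]
      simp only [Pi.smul_apply, smul_eq_mul, Pi.single_apply, mul_ite, mul_one, mul_zero]
      rw [Finset.sum_ite_eq]
      by_cases hi : i ∈ blk b B
      · simp [hi]
      · simp only [hi, if_false]
        exact hoff i (fun h => hi ((mem_blk b B i).2 h))
    set s : ℝ := ∑ j ∈ blk b B, y j with hs
    have hs0 : 0 ≤ s := Finset.sum_nonneg fun j _ => h0 j
    rcases hs0.eq_or_lt with hs0' | hspos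
    · -- all block coordinates vanish, so `y = 0`
      have hall : ∀ j ∈ blk b B, y j = 0 := by
        intro j hj
        exact (Finset.sum_eq_zero_iff_of_nonneg (fun j _ => h0 j)).1 hs0'.symm j hj
      have : y = 0 := by
        rw [hy_eq]
        apply Finset.sum_eq_zero
        intro j hj
        rw [hall j hj, zero_smul]
      rw [this]; exact hzero
    · have hcm : (blk b B).centerMass y (fun j => (Pi.single j (1 : ℝ) : ι → ℝ)) ∈
          convexHull ℝ (VB b B) := by
        apply Finset.centerMass_mem_convexHull _ (fun j _ => h0 j) hspos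
        intro j hj
        exact Or.inr ⟨j, (mem_blk b B j).1 hj, rfl⟩
      have hsm := (convex_convexHull ℝ (VB b B)).smul_mem_of_zero_mem hzero hcm
        (t := s) ⟨hs0, hsum⟩
      have heq : s • (blk b B).centerMass y (fun j => (Pi.single j (1 : ℝ) : ι → ℝ)) = y := by
        rw [Finset.centerMass, smul_smul, mul_inv_cancel₀ hspos.ne', one_smul, ← hy_eq]
      rwa [heq] at hsm

omit [DecidableEq ι] in
theorem sum_TB (b : ι → β) : ∑ B : β, TB b B = Kb b := by
  apply Set.Subset.antisymm
  · intro a ha
    rw [Set.mem_finsetSum] at ha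
    obtain ⟨g, hg, rfl⟩ := ha
    have hg' : ∀ B, g B ∈ TB b B := fun B => hg (Finset.mem_univ B)
    refine ⟨fun i => ?_, fun B => ?_⟩
    · rw [Finset.sum_apply]
      exact Finset.sum_nonneg fun B _ => (hg' B).1 i
    · have hrw : ∀ j ∈ blk b B, (∑ B' : β, g B') j = g B j := by
        intro j hj
        rw [Finset.sum_apply]
        apply Finset.sum_eq_single_of_mem B (Finset.mem_univ B)
        intro B' _ hB'
        apply (hg' B').2.1 j
        rw [(mem_blk b B j).1 hj]
        exact fun h => hB' h.symm
      rw [Finset.sum_congr rfl hrw]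
      exact (hg' B).2.2
  · intro y hy
    rw [Set.mem_finsetSum]
    refine ⟨fun B i => if b i = B then y i else 0, ?_, ?_⟩
    · intro B _
      refine ⟨fun i => ?_, fun i hi => ?_, ?_⟩
      · show (0 : ℝ) ≤ if b i = B then y i else 0
        split_ifs
        · exact hy.1 i
        · exact le_refl _
      · show (if b i = B then y i else 0) = 0
        simp [hi]
      · have hrw : ∀ j ∈ blk b B, (if b j = B then y j else 0) = y j := by
          intro j hj
          simp [(mem_blk b B j).1 hj]
        show ∑ j ∈ blk b B, (if b j = B then y j else 0) ≤ 1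
        rw [Finset.sum_congr rfl hrw]
        exact hy.2 B
    · funext i
      rw [Finset.sum_apply]
      simp

/-- `Kb b` is the convex hull of a finite set, in plain coordinates. -/
theorem exists_finite_hull (b : ι → β) :
    ∃ S : Set (ι → ℝ), S.Finite ∧ convexHull ℝ S = Kb b := by
  refine ⟨∑ B : β, VB b B, ?_, ?_⟩
  · apply Finset.sum_induction (fun B => VB b B) Set.Finite
    · intro s t hs ht
      exact hs.add ht
    · exact Set.finite_zero
    · intro B _
      exact VB_finite b B
  · rw [convexHull_sum]
    simp only [convexHull_VB]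
    exact sum_TB b

/-- Package H': `Kb b` is the convex hull of a `Finset` of `EuclideanSpace ℝ ι`. -/
theorem exists_finset_hull (b : ι → β) :
    ∃ S : Finset (EuclideanSpace ℝ ι),
      convexHull ℝ (S : Set (EuclideanSpace ℝ ι)) = {x : EuclideanSpace ℝ ι | x.ofLp ∈ Kb b} := by
  classical
  obtain ⟨S, hSfin, hS⟩ := exists_finite_hull b
  let e : EuclideanSpace ℝ ι ≃ₗ[ℝ] (ι → ℝ) := WithLp.linearEquiv 2 ℝ (ι → ℝ)
  have hfin : (e.symm '' S).Finite := hSfin.image _
  refine ⟨hfin.toFinset, ?_⟩
  rw [Set.Finite.coe_toFinset]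
  have h1 : convexHull ℝ (e.symm '' S) = e.symm '' convexHull ℝ S :=
    (e.symm.toLinearMap.image_convexHull S).symm
  rw [h1, hS]
  ext x
  constructor
  · rintro ⟨y, hy, rfl⟩
    show (e.symm y).ofLp ∈ Kb b
    exact hy
  · intro hx
    exact ⟨x.ofLp, hx, rfl⟩

end Blocks

end Crest.Agent.S0356.Helper51
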