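import Mathlib

/-!
# S0356 — generic simplex volumes (helper55; Mathlib only)

* `volume_simplex_radius`: the radius-`r` simplex over a finite type has volume `r ^ n / n!`;
* `volume_simplex`: the unit simplex has volume `1 / n!`;
* `volume_cylSimplex`: the cylinder over a facet of the unit simplex has volume `1 / (n - 1)!`.
-/

set_option autoImplicit false
open MeasureTheory

namespace Crest.Agent.S0356.Helper55

theorem measurableSet_simplex {ι : Type*} [Fintype ι] (r : ℝ) :
    MeasurableSet {y : ι → ℝ | (∀ i, 0 ≤ y i) ∧ ∑ i, y i ≤ r} := by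
  apply IsClosed.measurableSet
  have h1 : IsClosed {y : ι → ℝ | ∀ i, 0 ≤ y i} := by
    simp only [Set.ofPred_forall]
    exact isClosed_iInter fun i => isClosed_le continuous_const (continuous_apply i)
  have h2 : IsClosed {y : ι → ℝ | ∑ i, y i ≤ r} :=
    isClosed_le (continuous_finsetSum _ fun i _ => continuous_apply i) continuous_const
  exact h1.inter h2

theorem volume_simplexFin (n : ℕ) : ∀ r : ℝ, 0 ≤ r →
    volume {y : Fin n → ℝ | (∀ i, 0 ≤ y i) ∧ ∑ i, y i ≤ r} =
      ENNReal.ofReal (r ^ n / n.factorial) := by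
  induction n with
  | zero =>
    intro r hr
    have : {y : Fin 0 → ℝ | (∀ i, 0 ≤ y i) ∧ ∑ i, y i ≤ r} = Set.univ := by
      ext y; simp [hr]
    rw [this, volume_pi, Measure.pi_univ]
    simp
  | succ n ih =>
    intro r hr
    have he : MeasurePreserving (MeasurableEquiv.piFinSuccAbove (fun _ : Fin (n+1) => ℝ) 0) :=
      volume_preserving_piFinSuccAbove (fun _ : Fin (n+1) => ℝ) 0
    set T : Set (ℝ × (Fin n → ℝ)) :=
      {p | 0 ≤ p.1 ∧ (∀ i, 0 ≤ p.2 i) ∧ p.1 + ∑ i, p.2 i ≤ r} with hTdef
    have hT : MeasurableSet T := by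
      apply IsClosed.measurableSet
      have h0 : IsClosed {p : ℝ × (Fin n → ℝ) | 0 ≤ p.1} :=
        isClosed_le continuous_const continuous_fst
      have h1 : IsClosed {p : ℝ × (Fin n → ℝ) | ∀ i, 0 ≤ p.2 i} := by
        simp only [Set.ofPred_forall]
        exact isClosed_iInter fun i =>
          isClosed_le continuous_const ((continuous_apply i).comp continuous_snd)
      have h2 : IsClosed {p : ℝ × (Fin n → ℝ) | p.1 + ∑ i, p.2 i ≤ r} :=
        isClosed_le (continuous_fst.add (continuous_finsetSum _ fun i _ =>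
          (continuous_apply i).comp continuous_snd)) continuous_const
      exact h0.inter (h1.inter h2)
    have hpre : {y : Fin (n+1) → ℝ | (∀ i, 0 ≤ y i) ∧ ∑ i, y i ≤ r} =
        (MeasurableEquiv.piFinSuccAbove (fun _ : Fin (n+1) => ℝ) 0) ⁻¹' T := by
      ext y
      simp only [Set.mem_ofPred_eq, Set.mem_preimage, hTdef, MeasurableEquiv.piFinSuccAbove_apply,
        Fin.insertNthEquiv_zero, Fin.consEquiv_symm_apply, Fin.forall_fin_succ, Fin.sum_univ_succ]
      simp [Fin.tail, and_assoc]
    rw [hpre, he.measure_preimage hT.nullMeasurableSet, Measure.volume_eq_prod,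
      Measure.prod_apply hT]
    have hsec : ∀ s : ℝ, volume (Prod.mk s ⁻¹' T) =
        Set.indicator (Set.Icc 0 r) (fun s => ENNReal.ofReal ((r - s) ^ n / n.factorial)) s := by
      intro s
      by_cases hs : s ∈ Set.Icc 0 r
      · rw [Set.indicator_of_mem hs]
        have : Prod.mk s ⁻¹' T = {y : Fin n → ℝ | (∀ i, 0 ≤ y i) ∧ ∑ i, y i ≤ r - s} := by
          ext y
          simp only [Set.mem_preimage, Set.mem_ofPred_eq, hTdef, hs.1, true_and]
          constructor <;> intro h <;> exact ⟨h.1, by linarith [h.2]⟩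
        rw [this, ih (r - s) (by linarith [hs.2])]
      · rw [Set.indicator_of_notMem hs]
        have : Prod.mk s ⁻¹' T = ∅ := by
          ext y
          simp only [Set.mem_preimage, Set.mem_ofPred_eq, Set.mem_empty_iff_false, iff_false, hTdef]
          rintro ⟨h0, hy, hsum⟩
          apply hs
          refine ⟨h0, ?_⟩
          have : 0 ≤ ∑ i, y i := Finset.sum_nonneg fun i _ => hy i
          linarith
        rw [this, measure_empty]
    simp_rw [hsec]
    rw [lintegral_indicator measurableSet_Icc]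
    rw [← ofReal_integral_eq_lintegral_ofReal]
    · congr 1
      rw [integral_Icc_eq_integral_Ioc, ← intervalIntegral.integral_of_le hr]
      rw [intervalIntegral.integral_div,
        intervalIntegral.integral_comp_sub_left (fun x => x ^ n) r]
      simp only [sub_self, sub_zero, integral_pow]
      have hn : (n.factorial : ℝ) ≠ 0 := by positivity
      have hn1 : ((n : ℝ) + 1) ≠ 0 := by positivity
      rw [Nat.factorial_succ]
      push_cast
      field_simp
      ring
    · apply Continuous.integrableOn_Icc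
      fun_prop
    · refine (ae_restrict_iff' measurableSet_Icc).2 (Filter.Eventually.of_forall fun s hs => ?_)
      have : 0 ≤ r - s := by linarith [hs.2]
      positivity

/-- The radius-`r` simplex over any finite index type has volume `r ^ n / n!`. -/
theorem volume_simplex_radius (ι : Type*) [Fintype ι] (r : ℝ) (hr : 0 ≤ r) :
    volume {y : ι → ℝ | (∀ i, 0 ≤ y i) ∧ ∑ i, y i ≤ r} =
      ENNReal.ofReal (r ^ Fintype.card ι / ((Fintype.card ι).factorial : ℝ)) := by
  set f : Fin (Fintype.card ι) ≃ ι := (Fintype.equivFin ι).symm with hfdef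
  have hf := volume_measurePreserving_piCongrLeft (fun _ : ι => ℝ) f
  rw [← volume_simplexFin (Fintype.card ι) r hr,
    ← hf.measure_preimage (measurableSet_simplex r).nullMeasurableSet]
  congr 1
  ext y
  have h1 : ∀ j, (f.piCongrLeft (fun _ => ℝ)) y (f j) = y j :=
    fun j => Equiv.piCongrLeft_apply_apply (P := fun _ => ℝ) f y j
  simp only [Set.mem_preimage, Set.mem_ofPred_eq, MeasurableEquiv.coe_piCongrLeft]
  rw [← Equiv.sum_comp f, ← f.forall_congr_right]
  simp only [h1]

theorem volume_simplex (ι : Type*) [Fintype ι] :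
    volume {y : ι → ℝ | (∀ i, 0 ≤ y i) ∧ ∑ i, y i ≤ 1} =
      ENNReal.ofReal (1 / ((Fintype.card ι).factorial : ℝ)) := by
  rw [volume_simplex_radius ι 1 zero_le_one, one_pow]

theorem volume_Icc01 (κ : Type*) [Fintype κ] : volume (Set.Icc (0 : κ → ℝ) 1) = 1 := by
  rw [Real.volume_Icc_pi]
  simp

theorem isClosed_simplex {ι : Type*} [Fintype ι] (r : ℝ) :
    IsClosed {y : ι → ℝ | (∀ i, 0 ≤ y i) ∧ ∑ i, y i ≤ r} := by
  have h1 : IsClosed {y : ι → ℝ | ∀ i, 0 ≤ y i} := by
    simp only [Set.ofPred_forall]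
    exact isClosed_iInter fun i => isClosed_le continuous_const (continuous_apply i)
  have h2 : IsClosed {y : ι → ℝ | ∑ i, y i ≤ r} :=
    isClosed_le (continuous_finsetSum _ fun i _ => continuous_apply i) continuous_const
  exact h1.inter h2

theorem measurableSet_cylSimplex {ι : Type*} [Fintype ι] [DecidableEq ι] (a : ι) :
    MeasurableSet {z : ι → ℝ | 0 ≤ z a ∧ z a ≤ 1 ∧
        ((∀ j, 0 ≤ Function.update z a 0 j) ∧ ∑ j, Function.update z a 0 j ≤ 1)} := by
  have hu : Continuous fun z : ι → ℝ => Function.update z a 0 :=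
    continuous_id.update a continuous_const
  have h0 : IsClosed {z : ι → ℝ | 0 ≤ z a} := isClosed_le continuous_const (continuous_apply a)
  have h1 : IsClosed {z : ι → ℝ | z a ≤ 1} := isClosed_le (continuous_apply a) continuous_const
  have h2 : IsClosed {z : ι → ℝ | (∀ j, 0 ≤ Function.update z a 0 j) ∧
      ∑ j, Function.update z a 0 j ≤ 1} := (isClosed_simplex 1).preimage hu
  exact (h0.inter (h1.inter h2)).measurableSet

/-- Generic cylinder over a simplex facet: `z a ∈ [0,1]` and `z` with its `a`-th coordinate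
zeroed lies in the unit simplex. Its volume is `1 / (card ι - 1)!`. -/
theorem volume_cylSimplex (ι : Type*) [Fintype ι] [DecidableEq ι] (a : ι) :
    volume {z : ι → ℝ | 0 ≤ z a ∧ z a ≤ 1 ∧
        ((∀ j, 0 ≤ Function.update z a 0 j) ∧ ∑ j, Function.update z a 0 j ≤ 1)} =
      ENNReal.ofReal (1 / ((Fintype.card ι - 1).factorial : ℝ)) := by
  set p : ι → Prop := fun j => j = a with hp
  have he := volume_preserving_piEquivPiSubtypeProd (fun _ : ι => ℝ) p
  have hpre : {z : ι → ℝ | 0 ≤ z a ∧ z a ≤ 1 ∧
        ((∀ j, 0 ≤ Function.update z a 0 j) ∧ ∑ j, Function.update z a 0 j ≤ 1)} =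
      (MeasurableEquiv.piEquivPiSubtypeProd (fun _ : ι => ℝ) p) ⁻¹'
        ((Set.Icc (0 : {j // p j} → ℝ) 1) ×ˢ
          {y : {j // ¬ p j} → ℝ | (∀ j, 0 ≤ y j) ∧ ∑ j, y j ≤ 1}) := by
    ext z
    have s2 : ∑ j, Function.update z a 0 j = ∑ j : {j // ¬ p j}, z j := by
      rw [Finset.sum_update_of_mem (Finset.mem_univ a), zero_add]
      exact Finset.sum_subtype _ (fun x => by simp [hp]) z
    have hall : (∀ j, 0 ≤ Function.update z a 0 j) ↔ ∀ j : {j // ¬ p j}, 0 ≤ z j := by
      constructor
      · rintro h ⟨j, hj⟩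
        have := h j
        rwa [Function.update_of_ne hj] at this
      · intro h j
        by_cases hj : j = a
        · rw [hj, Function.update_self]
        · rw [Function.update_of_ne hj]; exact h ⟨j, hj⟩
    simp only [Set.mem_preimage, Set.mem_prod, Set.mem_ofPred_eq, Set.mem_Icc, s2, hall, Pi.le_def]
    constructor
    · rintro ⟨h0, h1, h2, h3⟩
      refine ⟨⟨?_, ?_⟩, ⟨h2, h3⟩⟩
      · rintro ⟨j, hj⟩
        have hj' : j = a := hj
        subst hj'
        exact h0
      · rintro ⟨j, hj⟩
        have hj' : j = a := hj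
        subst hj'
        exact h1
    · rintro ⟨⟨h0, h1⟩, ⟨h2, h3⟩⟩
      exact ⟨h0 ⟨a, rfl⟩, h1 ⟨a, rfl⟩, h2, h3⟩
  rw [hpre, he.measure_preimage
      (measurableSet_Icc.prod (measurableSet_simplex 1)).nullMeasurableSet,
    Measure.volume_eq_prod, Measure.prod_prod, volume_simplex,
    @volume_Icc01 {j // p j} (Subtype.fintype p)]
  have c2 : Fintype.card {j // ¬ p j} = Fintype.card ι - 1 := by
    rw [Fintype.card_subtype_compl, Fintype.card_subtype_eq]
  rw [c2]
  simp

end Crest.Agent.S0356.Helper55
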