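import Crest.Agent.Lib.S0356.Helper55P
import Crest.Agent.Lib.S0356.Helper55Simplex

/-!
# S0356 — package C' (helper55): volumes of `Kb b` and of the cylinders `Cylb b i`
-/

set_option autoImplicit false
open MeasureTheory

namespace Crest.Agent.S0356.Helper55
open Crest.Agent.S0356.Helper85

section Blocks
variable {ι β : Type*} [Fintype ι] [DecidableEq ι] [Fintype β] [DecidableEq β]

omit [DecidableEq ι] [Fintype β] in
theorem sum_blk_eq (b : ι → β) (B : β) (w : ι → ℝ) :
    ∑ j ∈ blk b B, w j = ∑ j : {j : ι // b j = B}, w j.1 :=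
  Finset.sum_subtype (blk b B) (fun x => by simp [blk]) w

omit [DecidableEq ι] [Fintype β] in
theorem card_fiber (b : ι → β) (B : β) : Fintype.card {j : ι // b j = B} = (blk b B).card := by
  rw [Fintype.card_subtype]; rfl

omit [DecidableEq ι] [Fintype β] in
theorem mem_Kb_iff (b : ι → β) (w : ι → ℝ) :
    w ∈ Kb b ↔ ∀ B : β, (fun j : {j : ι // b j = B} => w j.1) ∈
      {z : {j : ι // b j = B} → ℝ | (∀ j, 0 ≤ z j) ∧ ∑ j, z j ≤ 1} := by
  simp only [Kb, Set.mem_ofPred_eq, sum_blk_eq]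
  constructor
  · rintro ⟨h0, h1⟩ B
    exact ⟨fun j => h0 j.1, h1 B⟩
  · intro h
    exact ⟨fun i => (h (b i)).1 ⟨i, rfl⟩, fun B => (h B).2⟩

set_option linter.unusedSectionVars false in
/-- Package C', first half. -/
theorem volume_Kb (b : ι → β) : volume (Kb b) = ENNReal.ofReal (volKb b) := by
  have h : Kb b = {y : ι → ℝ | ∀ B : β, (fun j : {j : ι // b j = B} => y j.1) ∈
      {z : {j : ι // b j = B} → ℝ | (∀ j, 0 ≤ z j) ∧ ∑ j, z j ≤ 1}} := by
    ext w; exact mem_Kb_iff b w
  rw [h, volume_blockProd]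
  simp_rw [volume_simplex, card_fiber]
  rw [volKb, ENNReal.ofReal_prod_of_nonneg (fun B _ => by positivity)]

/-- The block sets describing the cylinder `Cylb b i`. -/
def cylBlock (b : ι → β) (i : ι) (B : β) : Set ({j : ι // b j = B} → ℝ) :=
  {z | (∀ h : b i = B, 0 ≤ z ⟨i, h⟩ ∧ z ⟨i, h⟩ ≤ 1) ∧
    (fun j : {j : ι // b j = B} => if j.1 = i then 0 else z j) ∈
      {z : {j : ι // b j = B} → ℝ | (∀ j, 0 ≤ z j) ∧ ∑ j, z j ≤ 1}}

omit [Fintype β] in
theorem mem_Cylb_iff (b : ι → β) (i : ι) (y : ι → ℝ) :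
    y ∈ Cylb b i ↔ ∀ B : β, (fun j : {j : ι // b j = B} => y j.1) ∈ cylBlock b i B := by
  have hupd : ∀ B : β, (fun j : {j : ι // b j = B} => Function.update y i 0 j.1) =
      (fun j : {j : ι // b j = B} => if j.1 = i then 0 else y j.1) := by
    intro B
    funext j
    simp [Function.update_apply]
  constructor
  · rintro ⟨h0, h1, hK⟩ B
    refine ⟨fun _ => ⟨h0, h1⟩, ?_⟩
    have hKB := (mem_Kb_iff b _).1 hK B
    rw [hupd B] at hKB
    exact hKB
  · intro h
    refine ⟨((h (b i)).1 rfl).1, ((h (b i)).1 rfl).2, (mem_Kb_iff b _).2 fun B => ?_⟩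
    rw [hupd B]
    exact (h B).2

omit [Fintype β] in
theorem volume_cylBlock_of_ne (b : ι → β) (i : ι) (B : β) (hB : B ≠ b i) :
    volume (cylBlock b i B) = ENNReal.ofReal (1 / ((blk b B).card.factorial : ℝ)) := by
  have h : cylBlock b i B =
      {z : {j : ι // b j = B} → ℝ | (∀ j, 0 ≤ z j) ∧ ∑ j, z j ≤ 1} := by
    ext z
    have hz : (fun j : {j : ι // b j = B} => if j.1 = i then 0 else z j) = z := by
      funext j
      have : j.1 ≠ i := fun hji => hB (by rw [← j.2, hji])
      simp [this]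
    constructor
    · rintro ⟨_, h2⟩
      rw [hz] at h2
      exact h2
    · intro h2
      refine ⟨fun h => absurd h.symm hB, ?_⟩
      rw [hz]
      exact h2
  rw [h, volume_simplex, card_fiber]

omit [Fintype β] in
theorem volume_cylBlock_self (b : ι → β) (i : ι) :
    volume (cylBlock b i (b i)) =
      ENNReal.ofReal (1 / (((blk b (b i)).card - 1).factorial : ℝ)) := by
  have h : cylBlock b i (b i) =
      {z : {j : ι // b j = b i} → ℝ | 0 ≤ z ⟨i, rfl⟩ ∧ z ⟨i, rfl⟩ ≤ 1 ∧
        ((∀ j, 0 ≤ Function.update z ⟨i, rfl⟩ 0 j) ∧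
          ∑ j, Function.update z ⟨i, rfl⟩ 0 j ≤ 1)} := by
    ext z
    have hz : (fun j : {j : ι // b j = b i} => if j.1 = i then 0 else z j) =
        Function.update z ⟨i, rfl⟩ 0 := by
      funext j
      by_cases hj : j.1 = i
      · have : j = ⟨i, rfl⟩ := Subtype.ext hj
        subst this
        simp
      · have : j ≠ ⟨i, rfl⟩ := fun h => hj (congrArg Subtype.val h)
        simp [hj, Function.update_of_ne this]
    constructor
    · rintro ⟨h1, h2⟩
      rw [hz] at h2
      exact ⟨(h1 rfl).1, (h1 rfl).2, h2⟩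
    · rintro ⟨h0, h1, h2⟩
      refine ⟨fun _ => ⟨h0, h1⟩, ?_⟩
      rw [hz]
      exact h2
  rw [h, volume_cylSimplex, card_fiber]

/-- Package C', second half. -/
theorem volume_Cylb (b : ι → β) (i : ι) : volume (Cylb b i) = ENNReal.ofReal (aB b (b i)) := by
  have h : Cylb b i =
      {y : ι → ℝ | ∀ B : β, (fun j : {j : ι // b j = B} => y j.1) ∈ cylBlock b i B} := by
    ext y; exact mem_Cylb_iff b i y
  rw [h, volume_blockProd]
  have hk : 1 ≤ (blk b (b i)).card :=
    Finset.card_pos.2 ⟨i, by simp [blk]⟩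
  have hvol : ∀ B : β, volume (cylBlock b i B) =
      ENNReal.ofReal ((if B = b i then ((blk b B).card : ℝ) else 1) *
        (1 / ((blk b B).card.factorial : ℝ))) := by
    intro B
    by_cases hB : B = b i
    · subst hB
      rw [volume_cylBlock_self, if_pos rfl]
      congr 1
      obtain ⟨k, hk'⟩ : ∃ k, (blk b (b i)).card = k + 1 := ⟨(blk b (b i)).card - 1, by omega⟩
      rw [hk', Nat.add_sub_cancel, Nat.factorial_succ]
      push_cast
      have h1 : ((k : ℝ) + 1) ≠ 0 := by positivity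
      have h2 : (k.factorial : ℝ) ≠ 0 := by positivity
      field_simp
    · rw [volume_cylBlock_of_ne b i B hB, if_neg hB, one_mul]
  simp_rw [hvol]
  rw [← ENNReal.ofReal_prod_of_nonneg (fun B _ => by positivity)]
  congr 1
  rw [Finset.prod_mul_distrib, Finset.prod_ite_eq' Finset.univ (b i)
    (fun B => ((blk b B).card : ℝ)), if_pos (Finset.mem_univ _)]
  rfl

end Blocks

end Crest.Agent.S0356.Helper55
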