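import Crest.Agent.Lib.S0356.Helper85Defs

/-!
# S0356 — package P (helper55): block splitting of `ι → ℝ` along a block map

`blockEquiv b : (ι → ℝ) ≃ᵐ ((B : β) → ({j // b j = B} → ℝ))` is volume preserving, hence the
volume of a set cut out blockwise is the product of the block volumes.
-/

set_option autoImplicit false
open MeasureTheory

namespace Crest.Agent.S0356.Helper55
open Crest.Agent.S0356.Helper85

/-- Split the coordinates of `ι → ℝ` along the fibres of `b : ι → β`. -/
def blockEquiv {ι β : Type*} (b : ι → β) :
    (ι → ℝ) ≃ᵐ ((B : β) → ({j // b j = B} → ℝ)) where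
  toFun y B j := y j.1
  invFun z i := z (b i) ⟨i, rfl⟩
  left_inv y := rfl
  right_inv z := by
    funext B ⟨i, hi⟩
    subst hi
    rfl
  measurable_toFun := by
    refine measurable_pi_lambda _ fun B => measurable_pi_lambda _ fun i => measurable_pi_apply _
  measurable_invFun := by
    refine measurable_pi_lambda _ fun i => ?_
    exact (measurable_pi_apply (⟨i, rfl⟩ : {j // b j = b i})).comp
      (measurable_pi_apply (b i))

@[simp] theorem blockEquiv_apply {ι β : Type*} (b : ι → β) (y : ι → ℝ) (B : β)
    (j : {j // b j = B}) : blockEquiv b y B j = y j.1 := rfl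

@[simp] theorem blockEquiv_symm_apply {ι β : Type*} (b : ι → β)
    (z : (B : β) → ({j // b j = B} → ℝ)) (i : ι) :
    (blockEquiv b).symm z i = z (b i) ⟨i, rfl⟩ := rfl

section Blocks
variable {ι β : Type*} [Fintype ι] [DecidableEq ι] [Fintype β] [DecidableEq β]

omit [DecidableEq ι] in
theorem measurePreserving_blockEquiv_symm (b : ι → β) :
    MeasurePreserving (blockEquiv b).symm volume volume := by
  refine ⟨(blockEquiv b).symm.measurable, ?_⟩
  rw [volume_pi (ι := ι)]
  refine (Measure.pi_eq fun s _ => ?_).symm
  rw [(blockEquiv b).symm.map_apply]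
  have hpre : (blockEquiv b).symm ⁻¹' Set.pi Set.univ s =
      Set.pi Set.univ (fun B => Set.pi Set.univ (fun j : {j // b j = B} => s j.1)) := by
    ext z
    simp only [Set.mem_preimage, Set.mem_pi, Set.mem_univ, forall_true_left,
      blockEquiv_symm_apply]
    constructor
    · rintro h B ⟨i, hi⟩
      subst hi
      exact h i
    · intro h i
      exact h (b i) ⟨i, rfl⟩
  rw [hpre, volume_pi_pi]
  simp_rw [volume_pi_pi]
  exact Fintype.prod_fiberwise b fun i => volume (s i)

omit [DecidableEq ι] in
theorem measurePreserving_blockEquiv (b : ι → β) :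
    MeasurePreserving (blockEquiv b) volume volume :=
  (measurePreserving_blockEquiv_symm b).symm (blockEquiv b).symm

set_option linter.unusedSectionVars false in
/-- Package P: for sets `S B ⊆ ({j // b j = B} → ℝ)`, the set of `y` all of whose block
restrictions lie in the `S B` has volume `∏_B volume (S B)`. -/
theorem volume_blockProd (b : ι → β) (S : ∀ B : β, Set ({j : ι // b j = B} → ℝ)) :
    volume {y : ι → ℝ | ∀ B : β, (fun j : {j : ι // b j = B} => y j.1) ∈ S B} =
      ∏ B, volume (S B) := by
  have h : {y : ι → ℝ | ∀ B : β, (fun j : {j : ι // b j = B} => y j.1) ∈ S B} =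
      blockEquiv b ⁻¹' Set.pi Set.univ S := by
    ext y
    simp only [Set.mem_ofPred_eq, Set.mem_preimage, Set.mem_pi, Set.mem_univ, forall_true_left]
    rfl
  rw [h, (measurePreserving_blockEquiv b).measure_preimage_equiv, volume_pi_pi]

end Blocks

end Crest.Agent.S0356.Helper55
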