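import Mathlib

/-!
# S0356 — shared definitions (helper85)

General "block" version of the `S0355` set-up: coordinates `ι`, a block map `b : ι → β`,
`Kb b` = product of the simplices `{y ≥ 0, ∑_{block} y ≤ 1}` over the blocks, written in plain
`ι → ℝ` coordinates.  The standard simplex is the one-block case, `T₁₀ × T₁₀` the two-block case.
Complete definitions only.
-/

set_option autoImplicit false
open MeasureTheory

namespace Crest.Agent.S0356.Helper85

/-- The sweep `K + [0,1]·u` of a set along a vector. -/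
def sweep {E : Type*} [AddCommGroup E] [Module ℝ E] (K : Set E) (u : E) : Set E :=
  Set.image2 (fun x (t : ℝ) => x + t • u) K (Set.Icc (0 : ℝ) 1)

section Blocks
variable {ι β : Type*} [Fintype ι] [DecidableEq β]

/-- The block `{j | b j = B}` of coordinates. -/
def blk (b : ι → β) (B : β) : Finset ι := Finset.univ.filter (fun j => b j = B)

/-- The product of simplices in coordinates: all coordinates nonnegative, each block sums to at
most one. -/
def Kb (b : ι → β) : Set (ι → ℝ) :=
  {y | (∀ i, 0 ≤ y i) ∧ ∀ B : β, ∑ j ∈ blk b B, y j ≤ 1}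

/-- The cylinder `[0,1] × (facet y_i = 0)`: `y i ∈ [0,1]` and `y` with its `i`-th coordinate
zeroed lies in `Kb b`. -/
def Cylb [DecidableEq ι] (b : ι → β) (i : ι) : Set (ι → ℝ) :=
  {y | 0 ≤ y i ∧ y i ≤ 1 ∧ Function.update y i 0 ∈ Kb b}

/-- The candidate projection body (a product of zonotopes) in coordinates, for block weights
`a : β → ℝ`: `|x i| ≤ a (b i)` and `|x i - x j| ≤ a (b i)` for `i, j` in the same block. -/
def PiSetb (b : ι → β) (a : β → ℝ) : Set (ι → ℝ) :=
  {x | (∀ i, |x i| ≤ a (b i)) ∧ ∀ i j : ι, b i = b j → |x i - x j| ≤ a (b i)}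

/-- The support-type function `H(u) = ∑_i a_{b i} |u i| + ∑_B a_B |∑_{j ∈ B} u j|`. -/
def Hfunb [Fintype β] (b : ι → β) (a : β → ℝ) (u : ι → ℝ) : ℝ :=
  ∑ i, a (b i) * |u i| + ∑ B, a B * |∑ j ∈ blk b B, u j|

/-- The volume of `Kb b`: `∏_B 1 / (k_B)!`, `k_B` the size of the block `B`. -/
noncomputable def volKb [Fintype β] (b : ι → β) : ℝ :=
  ∏ B, (1 : ℝ) / ((blk b B).card.factorial : ℝ)

/-- The block weights `a_B = k_B · vol (Kb b)` (= the volume of the cylinder `Cylb b i`,
`i ∈ B`). -/
noncomputable def aB [Fintype β] (b : ι → β) (B : β) : ℝ :=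
  ((blk b B).card : ℝ) * volKb b

end Blocks

/-! ### Auxiliary constants

The lemmas below make Lean generate the equation lemmas and the `simp` congruence lemmas of the
definitions above in THIS module, so that the package files (which all import it) do not each
generate their own copy of the same auxiliary names. -/
section Aux
variable {ι β : Type*} [Fintype ι] [DecidableEq β]

theorem aux_sweep_eq {E : Type*} [AddCommGroup E] [Module ℝ E] (K : Set E) (u : E) :
    sweep K u = Set.image2 (fun x (t : ℝ) => x + t • u) K (Set.Icc (0 : ℝ) 1) := by rw [sweep]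
theorem aux_sweep_congr {E : Type*} [AddCommGroup E] [Module ℝ E] (K K' : Set E) (h : K = K') (u : E) :
    sweep K u = sweep K' u := by simp only [h]
theorem aux_blk_eq (b : ι → β) (B : β) : blk b B = Finset.univ.filter (fun j => b j = B) := by rw [blk]
theorem aux_blk_congr (b b' : ι → β) (h : b = b') (B : β) : blk b B = blk b' B := by simp only [h]
theorem aux_Kb_eq (b : ι → β) :
    Kb b = {y | (∀ i, 0 ≤ y i) ∧ ∀ B : β, ∑ j ∈ blk b B, y j ≤ 1} := by rw [Kb]
theorem aux_Kb_congr (b b' : ι → β) (h : b = b') : Kb b = Kb b' := by simp only [h]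
theorem aux_Cylb_eq [DecidableEq ι] (b : ι → β) (i : ι) :
    Cylb b i = {y | 0 ≤ y i ∧ y i ≤ 1 ∧ Function.update y i 0 ∈ Kb b} := by rw [Cylb]
theorem aux_Cylb_congr [DecidableEq ι] (b b' : ι → β) (h : b = b') (i : ι) : Cylb b i = Cylb b' i := by
  simp only [h]
omit [Fintype ι] [DecidableEq β] in
theorem aux_PiSetb_eq (b : ι → β) (a : β → ℝ) :
    PiSetb b a = {x | (∀ i, |x i| ≤ a (b i)) ∧ ∀ i j : ι, b i = b j → |x i - x j| ≤ a (b i)} := by
  rw [PiSetb]
omit [Fintype ι] [DecidableEq β] in
theorem aux_PiSetb_congr (b b' : ι → β) (h : b = b') (a : β → ℝ) : PiSetb b a = PiSetb b' a := by simp only [h]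
theorem aux_Hfunb_eq [Fintype β] (b : ι → β) (a : β → ℝ) (u : ι → ℝ) :
    Hfunb b a u = ∑ i, a (b i) * |u i| + ∑ B, a B * |∑ j ∈ blk b B, u j| := by rw [Hfunb]
theorem aux_Hfunb_congr [Fintype β] (b b' : ι → β) (h : b = b') (a : β → ℝ) (u : ι → ℝ) :
    Hfunb b a u = Hfunb b' a u := by simp only [h]
theorem aux_volKb_eq [Fintype β] (b : ι → β) :
    volKb b = ∏ B, (1 : ℝ) / ((blk b B).card.factorial : ℝ) := by rw [volKb]
theorem aux_volKb_congr [Fintype β] (b b' : ι → β) (h : b = b') : volKb b = volKb b' := by simp only [h]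
theorem aux_aB_eq [Fintype β] (b : ι → β) (B : β) : aB b B = ((blk b B).card : ℝ) * volKb b := by rw [aB]
theorem aux_aB_congr [Fintype β] (b b' : ι → β) (h : b = b') (B : β) : aB b B = aB b' B := by simp only [h]

end Aux

end Crest.Agent.S0356.Helper85
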