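import Crest.Agent.Lib.S0356.Helper85Num
import Crest.Agent.Lib.S0356.GenA
import Crest.Agent.Lib.S0356.GenB
import Crest.Agent.Lib.S0356.Helper55Cb
import Crest.Agent.Lib.S0356.Helper43G
import Crest.Agent.Lib.S0356.Helper48E
import Crest.Agent.Lib.S0356.Helper13F
import Crest.Agent.Lib.S0356.Helper51H

/-!
# S0356 — assembly (helper85)

Packages used: generic A (`GenA.sweep_decomp`, helper51) and B (`GenB.sweep_eq_add_shadow`,
helper70), P + C' (helper55), D' + G' (helper43), E' (helper48), F' (helper13), H' (helper51).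
-/

set_option autoImplicit false
open MeasureTheory

namespace Crest.Agent.S0356.Helper85
open Crest.Agent.S0356

section Transfer
variable {ι β : Type*} [Fintype ι] [DecidableEq ι] [Fintype β] [DecidableEq β]

/-- Pull a set of coordinate vectors back to Euclidean space. -/
def toE (S : Set (ι → ℝ)) : Set (EuclideanSpace ℝ ι) := {x | x.ofLp ∈ S}

omit [DecidableEq ι] in
theorem volume_toE (S : Set (ι → ℝ)) : volume (toE S) = volume S :=
  (EuclideanSpace.volume_preserving_symm_measurableEquiv_toLp ι).measure_preimage_equiv S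

omit [Fintype ι] [DecidableEq ι] in
theorem toE_sweep (S : Set (ι → ℝ)) (u : EuclideanSpace ℝ ι) :
    toE (sweep S u.ofLp) = sweep (toE S) u := by
  ext x
  simp only [toE, sweep, Set.mem_ofPred_eq, Set.mem_image2]
  constructor
  · rintro ⟨k, hk, t, ht, h⟩
    refine ⟨WithLp.toLp 2 k, by simpa using hk, t, ht, ?_⟩
    apply (WithLp.ofLp_injective 2)
    simpa using h
  · rintro ⟨k, hk, t, ht, rfl⟩
    exact ⟨k.ofLp, hk, t, ht, by simp⟩

omit [Fintype β] [DecidableEq ι] in
theorem Kb_subset_Icc (b : ι → β) : Kb b ⊆ Set.Icc (0 : ι → ℝ) 1 := by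
  intro y hy
  refine ⟨fun i => hy.1 i, fun i => ?_⟩
  have h := hy.2 (b i)
  have hi : i ∈ blk b (b i) := by simp [blk]
  exact (Finset.single_le_sum (fun j _ => hy.1 j) hi).trans h

omit [Fintype β] [DecidableEq ι] in
theorem isClosed_Kb (b : ι → β) : IsClosed (Kb b) := by
  have : Kb b = (⋂ i, {y : ι → ℝ | 0 ≤ y i}) ∩ ⋂ B : β, {y : ι → ℝ | ∑ j ∈ blk b B, y j ≤ 1} := by
    ext y; simp [Kb]
  rw [this]
  refine IsClosed.inter (isClosed_iInter fun i => ?_) (isClosed_iInter fun B => ?_)
  · exact isClosed_le continuous_const (continuous_apply i)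
  · exact isClosed_le (continuous_finsetSum _ fun j _ => continuous_apply j) continuous_const

omit [Fintype β] [DecidableEq ι] in
theorem isCompact_Kb (b : ι → β) : IsCompact (Kb b) :=
  isCompact_Icc.of_isClosed_subset (isClosed_Kb b) (Kb_subset_Icc b)

omit [Fintype β] [DecidableEq ι] in
theorem isCompact_toE_Kb (b : ι → β) : IsCompact (toE (Kb b)) := by
  have : toE (Kb b) = WithLp.toLp 2 '' Kb b := by
    ext x
    simp only [toE, Set.mem_ofPred_eq, Set.mem_image]
    constructor
    · intro h; exact ⟨x.ofLp, h, by simp⟩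
    · rintro ⟨y, hy, rfl⟩; simpa using hy
  rw [this]
  exact (isCompact_Kb b).image (PiLp.continuous_toLp 2 _)

omit [Fintype β] [DecidableEq ι] in
theorem convex_toE_Kb (b : ι → β) : Convex ℝ (toE (Kb b)) := by
  intro x hx y hy s t hs ht hst
  simp only [toE, Kb, Set.mem_ofPred_eq] at hx hy ⊢
  refine ⟨fun i => ?_, fun B => ?_⟩
  · have h1 := hx.1 i
    have h2 := hy.1 i
    simp only [WithLp.ofLp_add, WithLp.ofLp_smul, Pi.add_apply, Pi.smul_apply, smul_eq_mul]
    positivity
  · have h1 := hx.2 B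
    have h2 := hy.2 B
    simp only [WithLp.ofLp_add, WithLp.ofLp_smul, Pi.add_apply, Pi.smul_apply, smul_eq_mul,
      Finset.sum_add_distrib, ← Finset.mul_sum]
    nlinarith

omit [DecidableEq ι] in
theorem volKb_pos (b : ι → β) : 0 < volKb b := by
  unfold volKb
  exact Finset.prod_pos fun B _ => by positivity

omit [DecidableEq ι] in
theorem aB_nonneg (b : ι → β) (B : β) : 0 ≤ aB b B := by
  unfold aB
  exact mul_nonneg (by positivity) (volKb_pos b).le

omit [DecidableEq ι] in
theorem aB_pos (b : ι → β) (i : ι) : 0 < aB b (b i) := by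
  unfold aB
  have hi : i ∈ blk b (b i) := by simp [blk]
  have : 0 < (blk b (b i)).card := Finset.card_pos.mpr ⟨i, hi⟩
  exact mul_pos (by exact_mod_cast this) (volKb_pos b)

omit [DecidableEq ι] in
theorem Hfunb_nonneg (b : ι → β) (u : ι → ℝ) : 0 ≤ Hfunb b (aB b) u := by
  unfold Hfunb
  refine add_nonneg (Finset.sum_nonneg fun i _ => ?_) (Finset.sum_nonneg fun B _ => ?_)
  · exact mul_nonneg (aB_nonneg b _) (abs_nonneg _)
  · exact mul_nonneg (aB_nonneg b _) (abs_nonneg _)

/-- Package G' (helper43) with packages A (helper51) and C' (helper55) plugged in. -/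
theorem volume_sweep_Kb (b : ι → β) (u : ι → ℝ) :
    volume (sweep (Kb b) u) = volume (Kb b) + ENNReal.ofReal (1 / 2 * Hfunb b (aB b) u) :=
  Helper43.volume_sweep_Kb_of (fun l c u hK hind => GenA.sweep_decomp volume l c u hK hind) b
    (fun i => Helper55.volume_Cylb b i) u

/-- The shadow function of `Kb b` in Euclidean space. -/
theorem shadow_KE {d : ℕ} (hd : Fintype.card ι = d + 1) (b : ι → β)
    (u : EuclideanSpace ℝ ι) (hu : ‖u‖ = 1) :
    (μHE[d] : Measure (EuclideanSpace ℝ ι)) ((fun y => y - inner ℝ y u • u) '' toE (Kb b)) =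
      ENNReal.ofReal (1 / 2 * Hfunb b (aB b) u.ofLp) := by
  have hB := GenB.sweep_eq_add_shadow (V := EuclideanSpace ℝ ι) (d := d) (by simp [hd])
    (toE (Kb b)) (isCompact_toE_Kb b) (convex_toE_Kb b) u hu
  have hG := volume_sweep_Kb b u.ofLp
  rw [← toE_sweep, volume_toE, hG, volume_toE] at hB
  have hfin : volume (Kb b) ≠ ⊤ := by
    rw [Helper55.volume_Kb]; exact ENNReal.ofReal_ne_top
  exact ((ENNReal.add_right_inj hfin).mp hB).symm

/-- The projection body of `Kb b` in Euclidean space. -/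
theorem projBody_KE {d : ℕ} (hd : Fintype.card ι = d + 1) (b : ι → β) :
    (⋂ u ∈ Metric.sphere (0 : EuclideanSpace ℝ ι) 1,
        {x : EuclideanSpace ℝ ι | inner ℝ x u ≤
          ((μHE[d] : Measure (EuclideanSpace ℝ ι))
            ((fun y => y - inner ℝ y u • u) '' toE (Kb b))).toReal}) =
      toE (PiSetb b (aB b)) := by
  rw [show toE (PiSetb b (aB b)) = {x : EuclideanSpace ℝ ι | x.ofLp ∈ PiSetb b (aB b)} from rfl,
    ← Helper13.polar_eq b (aB b) (aB_pos b)]
  refine Set.iInter₂_congr fun u hu => ?_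
  have hu1 : ‖u‖ = 1 := by simpa using hu
  rw [shadow_KE hd b u hu1, ENNReal.toReal_ofReal (by have := Hfunb_nonneg b u.ofLp; positivity)]

omit [DecidableEq ι] in
theorem sum_card_blk (b : ι → β) : ∑ B, (blk b B).card = Fintype.card ι := by
  have := Finset.card_eq_sum_card_fiberwise (f := b) (s := Finset.univ) (t := Finset.univ)
    (fun i _ => Finset.mem_univ _)
  simpa [blk, Finset.card_univ] using this.symm

/-- The normalised projection-body volume of `Kb b`. -/
theorem phi_KE {d : ℕ} (hd : Fintype.card ι = d + 1) (b : ι → β) :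
    (volume (⋂ u ∈ Metric.sphere (0 : EuclideanSpace ℝ ι) 1,
        {x : EuclideanSpace ℝ ι | inner ℝ x u ≤
          ((μHE[d] : Measure (EuclideanSpace ℝ ι))
            ((fun y => y - inner ℝ y u • u) '' toE (Kb b))).toReal})).toReal /
        (volume (toE (Kb b))).toReal ^ d =
      ∏ B, phiS (blk b B).card := by
  rw [projBody_KE hd b, volume_toE, volume_toE, Helper48.volume_PiSetb b (aB b) (aB_pos b),
    Helper55.volume_Kb]
  have hV := volKb_pos b
  have hprod : 0 ≤ ∏ B, (((blk b B).card : ℝ) + 1) * aB b B ^ (blk b B).card :=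
    Finset.prod_nonneg fun B _ => mul_nonneg (by positivity) (pow_nonneg (aB_nonneg b B) _)
  rw [ENNReal.toReal_ofReal hprod, ENNReal.toReal_ofReal hV.le]
  have h1 : ∏ B, (((blk b B).card : ℝ) + 1) * aB b B ^ (blk b B).card =
      (∏ B, (((blk b B).card : ℝ) + 1) * ((blk b B).card : ℝ) ^ (blk b B).card) *
        volKb b ^ (d + 1) := by
    rw [← hd, ← sum_card_blk b, ← Finset.prod_pow_eq_pow_sum, ← Finset.prod_mul_distrib]
    refine Finset.prod_congr rfl fun B _ => ?_
    unfold aB
    rw [mul_pow]; ring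
  rw [h1]
  have h2 : ∀ P : ℝ, P * volKb b ^ (d + 1) / volKb b ^ d = P * volKb b := by
    intro P
    have := (pow_pos hV d).ne'
    field_simp
    ring
  rw [h2]
  unfold volKb phiS
  rw [← Finset.prod_mul_distrib]
  refine Finset.prod_congr rfl fun B _ => ?_
  ring

end Transfer

section Final

/-- Block map on `Fin n`: blocks of five consecutive indices, the remainder in one last block. -/
def bmap (n : ℕ) : Fin n → Fin (n / 5) ⊕ Unit :=
  fun i => if h : i.val / 5 < n / 5 then Sum.inl ⟨i.val / 5, h⟩ else Sum.inr ()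

theorem card_blk_bmap (n : ℕ) (j : Fin (n / 5)) : (blk (bmap n) (Sum.inl j)).card = 5 := by
  have hj := j.isLt
  have key : blk (bmap n) (Sum.inl j) =
      Finset.univ.map ⟨fun t : Fin 5 => (⟨5 * j.val + t.val, by omega⟩ : Fin n), fun s t h => by
        simp only [Fin.mk.injEq] at h; ext; omega⟩ := by
    ext i
    simp only [blk, Finset.mem_filter, Finset.mem_univ, true_and, Finset.mem_map,
      Function.Embedding.coeFn_mk]
    constructor
    · intro h
      unfold bmap at h
      split_ifs at h with hlt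
      · have h' : i.val / 5 = j.val := by
          have := Sum.inl.inj h
          simpa [Fin.ext_iff] using this
        exact ⟨⟨i.val % 5, Nat.mod_lt _ (by norm_num)⟩, by ext; simp; omega⟩
    · rintro ⟨t, rfl⟩
      have h1 : (5 * j.val + t.val) / 5 = j.val := by omega
      unfold bmap
      simp [h1]
  rw [key, Finset.card_map, Finset.card_univ, Fintype.card_fin]

theorem prod_phiS_bmap (n : ℕ) :
    (156.25 : ℝ) ^ (n / 5) ≤ ∏ B, phiS (blk (bmap n) B).card := by
  rw [Fintype.prod_sum_type]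
  have h1 : ∏ j : Fin (n / 5), phiS (blk (bmap n) (Sum.inl j)).card = (156.25 : ℝ) ^ (n / 5) := by
    simp [card_blk_bmap, phiS_five]
  rw [h1]
  have h2 : (1 : ℝ) ≤ ∏ u : Unit, phiS (blk (bmap n) (Sum.inr u)).card := by
    simp only [Finset.univ_unique, Finset.prod_singleton]
    exact one_le_phiS _
  exact le_mul_of_one_le_right (by positivity) h2

theorem interior_toE_Kb_nonempty {n : ℕ} {β : Type*} [DecidableEq β] (b : Fin n → β) :
    (interior (toE (Kb b))).Nonempty := by
  set U : Set (EuclideanSpace ℝ (Fin n)) :=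
    ⋂ i : Fin n, {x | 0 < x.ofLp i ∧ x.ofLp i < 1 / ((n : ℝ) + 1)} with hUdef
  have hc : ∀ i : Fin n, Continuous fun x : EuclideanSpace ℝ (Fin n) => x.ofLp i := fun i =>
    (continuous_apply i).comp (PiLp.continuous_ofLp 2 _)
  have hU : IsOpen U := isOpen_iInter_of_finite fun i =>
    (isOpen_lt continuous_const (hc i)).inter (isOpen_lt (hc i) continuous_const)
  have hn : (0 : ℝ) < (n : ℝ) + 1 := by positivity
  have hsub : U ⊆ toE (Kb b) := by
    intro x hx
    rw [hUdef, Set.mem_iInter] at hx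
    refine ⟨fun i => (hx i).1.le, fun B => ?_⟩
    calc ∑ j ∈ blk b B, x.ofLp j ≤ ∑ _j ∈ blk b B, 1 / ((n : ℝ) + 1) :=
          Finset.sum_le_sum fun j _ => (hx j).2.le
      _ = ((blk b B).card : ℝ) / ((n : ℝ) + 1) := by
          rw [Finset.sum_const, nsmul_eq_mul]; ring
      _ ≤ 1 := by
          rw [div_le_one hn]
          have : (blk b B).card ≤ n := by
            simpa using Finset.card_le_univ (blk b B)
          have : ((blk b B).card : ℝ) ≤ (n : ℝ) := by exact_mod_cast this
          linarith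
  have hne : WithLp.toLp 2 (fun _ : Fin n => 1 / (2 * ((n : ℝ) + 1))) ∈ U := by
    rw [hUdef, Set.mem_iInter]
    intro i
    simp only [Set.mem_ofPred_eq]
    constructor
    · positivity
    · rw [div_lt_div_iff₀ (by positivity) hn]
      nlinarith
  exact ⟨_, interior_maximal hsub hU hne⟩

/-- The statement of S0356. -/
theorem main :
    ∃ lam : ℝ, 1 < lam ∧ ∃ N : ℕ, 20 ≤ N ∧ ∀ n : ℕ, N ≤ n →
      ∃ S : Finset (EuclideanSpace ℝ (Fin n)),
        (interior (convexHull ℝ (S : Set (EuclideanSpace ℝ (Fin n))))).Nonempty ∧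
        lam ^ n *
            ((volume (⋂ u ∈ Metric.sphere (0 : EuclideanSpace ℝ (Fin n)) 1,
          {x : EuclideanSpace ℝ (Fin n) | inner ℝ x u ≤
            ((μHE[n - 1] : Measure (EuclideanSpace ℝ (Fin n))) ((fun y => y - inner ℝ y u • u) '' {x : EuclideanSpace ℝ (Fin n) | (∀ i, 0 ≤ x i) ∧ ∑ i, x i ≤ 1})).toReal})).toReal /
              (volume {x : EuclideanSpace ℝ (Fin n) | (∀ i, 0 ≤ x i) ∧ ∑ i, x i ≤ 1}).toReal ^ (n - 1)) ≤
          (volume (⋂ u ∈ Metric.sphere (0 : EuclideanSpace ℝ (Fin n)) 1,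
          {x : EuclideanSpace ℝ (Fin n) | inner ℝ x u ≤
            ((μHE[n - 1] : Measure (EuclideanSpace ℝ (Fin n))) ((fun y => y - inner ℝ y u • u) '' (convexHull ℝ (S : Set (EuclideanSpace ℝ (Fin n)))))).toReal})).toReal /
            (volume (convexHull ℝ (S : Set (EuclideanSpace ℝ (Fin n))))).toReal ^ (n - 1) := by
  refine ⟨1.005, by norm_num, 100000000, by norm_num, fun n hn => ?_⟩
  obtain ⟨d, rfl⟩ : ∃ d, n = d + 1 := ⟨n - 1, by omega⟩
  obtain ⟨S, hS⟩ := Helper51.exists_finset_hull (bmap (d + 1))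
  refine ⟨S, ?_, ?_⟩
  · rw [hS]; exact interior_toE_Kb_nonempty _
  · rw [hS]
    have hsimp : {x : EuclideanSpace ℝ (Fin (d + 1)) | (∀ i, 0 ≤ x i) ∧ ∑ i, x i ≤ 1} =
        toE (Kb (fun _ : Fin (d + 1) => ())) := by
      ext x; simp [toE, Kb, blk]
    rw [hsimp]
    simp only [Nat.add_sub_cancel]
    have h1 := phi_KE (d := d) (by simp) (fun _ : Fin (d + 1) => ())
    have h2 := phi_KE (d := d) (by simp) (bmap (d + 1))
    have h3 : ∏ B : Unit, phiS (blk (fun _ : Fin (d + 1) => ()) B).card = phiS (d + 1) := by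
      simp [blk]
    rw [h3] at h1
    change (1.005 : ℝ) ^ (d + 1) * _ ≤ _
    rw [h1]
    refine le_trans ((numeric (d + 1) hn).trans (prod_phiS_bmap (d + 1))) (le_of_eq ?_)
    exact h2.symm

end Final

end Crest.Agent.S0356.Helper85
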