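import Mathlib

/-!
# S0356 — the numerical inequality (helper85)

`1.005 ^ n * ((n+1) n^n / n!) ≤ 156.25 ^ (n / 5)` for `n ≥ 10^8`, and `1 ≤ (k+1) k^k / k!`.
-/

set_option autoImplicit false

namespace Crest.Agent.S0356.Helper85

open Nat in
/-- The simplex value `(k+1) k^k / k!`. -/
noncomputable def phiS (k : ℕ) : ℝ := ((k : ℝ) + 1) * (k : ℝ) ^ k / (k.factorial : ℝ)

theorem one_le_phiS (k : ℕ) : 1 ≤ phiS k := by
  unfold phiS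
  have hf : (0 : ℝ) < (k.factorial : ℝ) := by exact_mod_cast k.factorial_pos
  rw [le_div_iff₀ hf]
  have h1 : ((k.factorial : ℕ) : ℝ) ≤ (k : ℝ) ^ k := by exact_mod_cast Nat.factorial_le_pow k
  have h2 : (0 : ℝ) ≤ (k : ℝ) ^ k := by positivity
  have h3 : (0 : ℝ) ≤ (k : ℝ) := by positivity
  nlinarith

theorem phiS_five : phiS 5 = 156.25 := by
  unfold phiS
  norm_num [Nat.factorial]

theorem phiS_le (n : ℕ) : phiS n ≤ ((n : ℝ) + 1) * (2.7183 : ℝ) ^ n := by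
  unfold phiS
  have h1 : (n : ℝ) ^ n / (n.factorial : ℝ) ≤ Real.exp n :=
    Real.pow_div_factorial_le_exp (n : ℝ) (by positivity) n
  have h2 : Real.exp (n : ℝ) = Real.exp 1 ^ n := by
    rw [← Real.exp_nat_mul, mul_one]
  have h3 : Real.exp 1 ^ n ≤ (2.7183 : ℝ) ^ n :=
    pow_le_pow_left₀ (Real.exp_pos 1).le (Real.exp_one_lt_d9.le.trans (by norm_num)) n
  have h4 : (0 : ℝ) ≤ (n : ℝ) + 1 := by positivity
  calc ((n : ℝ) + 1) * (n : ℝ) ^ n / (n.factorial : ℝ)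
      = ((n : ℝ) + 1) * ((n : ℝ) ^ n / (n.factorial : ℝ)) := by ring
    _ ≤ ((n : ℝ) + 1) * (2.7183 : ℝ) ^ n :=
        mul_le_mul_of_nonneg_left (h1.trans (h2 ▸ h3)) h4

theorem rho_pow (n : ℕ) (hn : 100000000 ≤ n) : (57 : ℝ) * ((n : ℝ) + 1) ≤ (1.0047 : ℝ) ^ n := by
  set m := n / 2 with hm
  have hm1 : 49999999 ≤ m := by omega
  have hn2 : n ≤ 2 * m + 1 := by omega
  have h2m : 2 * m ≤ n := by omega
  have hb : (1 : ℝ) + (m : ℝ) * (0.0047 : ℝ) ≤ (1.0047 : ℝ) ^ m := by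
    have := one_add_mul_le_pow (a := (0.0047 : ℝ)) (by norm_num) m
    norm_num at this ⊢
    linarith
  have hmr : (49999999 : ℝ) ≤ (m : ℝ) := by exact_mod_cast hm1
  have hnr : (n : ℝ) ≤ 2 * (m : ℝ) + 1 := by exact_mod_cast hn2
  have hpos : (0 : ℝ) ≤ 1 + (m : ℝ) * 0.0047 := by positivity
  have hsq : (1 + (m : ℝ) * 0.0047) ^ 2 ≤ (1.0047 : ℝ) ^ (2 * m) := by
    rw [pow_mul']
    exact pow_le_pow_left₀ hpos hb 2
  have hmono : (1.0047 : ℝ) ^ (2 * m) ≤ (1.0047 : ℝ) ^ n :=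
    pow_le_pow_right₀ (by norm_num) h2m
  nlinarith

theorem numeric (n : ℕ) (hn : 100000000 ≤ n) :
    (1.005 : ℝ) ^ n * phiS n ≤ (156.25 : ℝ) ^ (n / 5) := by
  have h1 := phiS_le n
  have h2 := rho_pow n hn
  have hc5 : (2.745 : ℝ) ^ 5 ≤ 156.25 := by norm_num
  have h3 : (2.745 : ℝ) ^ (5 * (n / 5)) ≤ (156.25 : ℝ) ^ (n / 5) := by
    rw [pow_mul]
    exact pow_le_pow_left₀ (by positivity) hc5 _
  have h4 : (2.745 : ℝ) ^ n ≤ (2.745 : ℝ) ^ (5 * (n / 5)) * (2.745 : ℝ) ^ 4 := by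
    rw [← pow_add]
    exact pow_le_pow_right₀ (by norm_num) (by omega)
  have h5 : ((1.005 : ℝ) * 2.7183 * 1.0047) ^ n ≤ (2.745 : ℝ) ^ n :=
    pow_le_pow_left₀ (by norm_num) (by norm_num) n
  have h6 : ((1.005 : ℝ) * 2.7183 * 1.0047) ^ n
      = (1.005 : ℝ) ^ n * (2.7183 : ℝ) ^ n * (1.0047 : ℝ) ^ n := by
    rw [mul_pow, mul_pow]
  have hA : (0 : ℝ) < (1.005 : ℝ) ^ n * (2.7183 : ℝ) ^ n := by positivity
  have hc4 : (2.745 : ℝ) ^ 4 ≤ 57 := by norm_num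
  have hX : (0 : ℝ) ≤ (2.745 : ℝ) ^ (5 * (n / 5)) := by positivity
  -- 1.005^n * phiS n ≤ 1.005^n (n+1) d^n ≤ A * rho^n / 57 ≤ c^n / 57 ≤ c^(5q) c^4 / 57 ≤ c^(5q)
  have step1 : (1.005 : ℝ) ^ n * phiS n ≤ (1.005 : ℝ) ^ n * (((n : ℝ) + 1) * (2.7183 : ℝ) ^ n) :=
    mul_le_mul_of_nonneg_left h1 (by positivity)
  have step2 : (57 : ℝ) * ((1.005 : ℝ) ^ n * (((n : ℝ) + 1) * (2.7183 : ℝ) ^ n))
      ≤ (1.005 : ℝ) ^ n * (2.7183 : ℝ) ^ n * (1.0047 : ℝ) ^ n := by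
    have := mul_le_mul_of_nonneg_left h2 hA.le
    nlinarith
  have step3 : (57 : ℝ) * ((1.005 : ℝ) ^ n * phiS n) ≤ 57 * (2.745 : ℝ) ^ (5 * (n / 5)) := by
    calc (57 : ℝ) * ((1.005 : ℝ) ^ n * phiS n)
        ≤ 57 * ((1.005 : ℝ) ^ n * (((n : ℝ) + 1) * (2.7183 : ℝ) ^ n)) := by linarith
      _ ≤ (1.005 : ℝ) ^ n * (2.7183 : ℝ) ^ n * (1.0047 : ℝ) ^ n := step2
      _ = ((1.005 : ℝ) * 2.7183 * 1.0047) ^ n := h6.symm
      _ ≤ (2.745 : ℝ) ^ n := h5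
      _ ≤ (2.745 : ℝ) ^ (5 * (n / 5)) * (2.745 : ℝ) ^ 4 := h4
      _ ≤ (2.745 : ℝ) ^ (5 * (n / 5)) * 57 := mul_le_mul_of_nonneg_left hc4 hX
      _ = 57 * (2.745 : ℝ) ^ (5 * (n / 5)) := by ring
  linarith

end Crest.Agent.S0356.Helper85
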